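import Vale.Agent.P078.VN.Threshold

/-!
# P078: pinchings of an operator by finite partitions in an abelian algebra
-/

namespace Vale.Agent.P078

open scoped InnerProductSpace

variable {H : Type*} [NormedAddCommGroup H] [InnerProductSpace ℂ H] [CompleteSpace H]
variable {A : StarSubalgebra ℂ (H →L[ℂ] H)}

/-- `T` is the pinching of `x` by some finite partition of `1` in `A`. -/
def IsPinch (A : StarSubalgebra ℂ (H →L[ℂ] H)) (x T : H →L[ℂ] H) : Prop :=
  ∃ (J : Type) (_ : Fintype J) (g : J → (H →L[ℂ] H)), IsPart A g 1 ∧ T = ∑ j, g j * x * g j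

lemma norm_sum_pinch_le {J : Type*} [Fintype J] {g : J → (H →L[ℂ] H)} (hg : IsPart A g 1)
    (x : H →L[ℂ] H) : ‖∑ j, g j * x * g j‖ ≤ ‖x‖ := by
  classical
  apply ContinuousLinearMap.opNorm_le_bound _ (norm_nonneg _)
  intro v
  set y := (∑ j, g j * x * g j) v with hy
  have h1 : ∀ k, g k y = g k (x (g k v)) := by
    intro k
    rw [hy, sum_apply, map_sum, Finset.sum_eq_single k]
    · simp only [mul_apply']
      rw [proj_apply_apply (hg.proj k)]
    · intro j _ hjk
      simp only [mul_apply']
      rw [hg.apply_apply_ne hjk.symm]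
    · intro h; exact absurd (Finset.mem_univ k) h
  have h2 : ‖y‖ ^ 2 ≤ (‖x‖ * ‖v‖) ^ 2 := by
    have h3 := hg.sum_norm_sq y
    have h4 := hg.sum_norm_sq v
    simp only [one_apply_eq_self] at h3 h4
    rw [← h3, mul_pow, ← h4, Finset.mul_sum]
    apply Finset.sum_le_sum
    intro k _
    rw [h1 k, ← mul_pow]
    have h5 : ‖g k (x (g k v))‖ ≤ ‖x‖ * ‖g k v‖ :=
      (proj_norm_apply_le (hg.proj k) _).trans (x.le_opNorm _)
    gcongr
  exact (pow_le_pow_iff_left₀ (norm_nonneg _) (by positivity) two_ne_zero).mp h2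

namespace IsPinch

variable {x T : H →L[ℂ] H}

lemma refl (x : H →L[ℂ] H) : IsPinch A x x :=
  ⟨Unit, inferInstance, fun _ => 1, ⟨fun _ => one_mem A, fun _ => IsStarProjection.one _, fun i j hij => absurd (Subsingleton.elim i j) hij, by simp⟩, by simp⟩

lemma norm_le (h : IsPinch A x T) : ‖T‖ ≤ ‖x‖ := by
  obtain ⟨J, _, g, hg, rfl⟩ := h
  exact norm_sum_pinch_le hg x

lemma mem {M : StarSubalgebra ℂ (H →L[ℂ] H)} (hAM : A ≤ M) (hx : x ∈ M) (h : IsPinch A x T) :
    T ∈ M := by
  obtain ⟨J, _, g, hg, rfl⟩ := h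
  exact sum_mem fun j _ => mul_mem (mul_mem (hAM (hg.mem j)) hx) (hAM (hg.mem j))

lemma sa (hx : IsSelfAdjoint x) (h : IsPinch A x T) : IsSelfAdjoint T := by
  obtain ⟨J, _, g, hg, rfl⟩ := h
  unfold IsSelfAdjoint
  rw [star_sum]
  apply Finset.sum_congr rfl
  intro j _
  rw [star_mul, star_mul, (hg.proj j).isSelfAdjoint.star_eq, hx.star_eq, mul_assoc]

lemma step (hcomm : ∀ a ∈ A, ∀ b ∈ A, a * b = b * a) {e : H →L[ℂ] H} (he : e ∈ A)
    (hep : IsStarProjection e) (h : IsPinch A x T) :
    IsPinch A x (e * T * e + (1 - e) * T * (1 - e)) := by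
  obtain ⟨J, _, g, hg, rfl⟩ := h
  have hpair := IsPart.pair (A := A) (one_mem A) (IsStarProjection.one _) he hep (mul_one e)
  have hprod := hpair.prod hcomm hg
  rw [one_mul] at hprod
  refine ⟨Bool × J, inferInstance, _, hprod, ?_⟩
  rw [Fintype.sum_prod_type, Fintype.sum_bool]
  simp only [if_true, Bool.false_eq_true, if_false]
  rw [Finset.mul_sum, Finset.sum_mul, Finset.mul_sum, Finset.sum_mul]
  congr 1
  · apply Finset.sum_congr rfl
    intro j _
    have h1 : e * g j = g j * e := hcomm _ he _ (hg.mem j)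
    calc e * (g j * x * g j) * e = (e * g j) * x * (g j * e) := by simp only [mul_assoc]
      _ = (e * g j) * x * (e * g j) := by rw [← h1]
  · apply Finset.sum_congr rfl
    intro j _
    have h1 : (1 - e) * g j = g j * (1 - e) :=
      hcomm _ (sub_mem (one_mem A) he) _ (hg.mem j)
    calc (1 - e) * (g j * x * g j) * (1 - e) = ((1 - e) * g j) * x * (g j * (1 - e)) := by
          simp only [mul_assoc]
      _ = ((1 - e) * g j) * x * ((1 - e) * g j) := by rw [← h1]

end IsPinch

/-- Iterated two-piece pinchings along a list of projections. -/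
noncomputable def pinchList (x : H →L[ℂ] H) : List (H →L[ℂ] H) → (H →L[ℂ] H)
  | [] => x
  | e :: l => e * pinchList x l * e + (1 - e) * pinchList x l * (1 - e)

lemma pinchList_isPinch (hcomm : ∀ a ∈ A, ∀ b ∈ A, a * b = b * a) (x : H →L[ℂ] H)
    (l : List (H →L[ℂ] H)) (hl : ∀ e ∈ l, e ∈ A ∧ IsStarProjection e) :
    IsPinch A x (pinchList x l) := by
  induction l with
  | nil => exact IsPinch.refl x
  | cons e l ih =>
    have h1 := hl e (List.mem_cons_self)
    exact (ih fun e' he' => hl e' (List.mem_cons_of_mem _ he')).step hcomm h1.1 h1.2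

lemma pinchList_commute (hcomm : ∀ a ∈ A, ∀ b ∈ A, a * b = b * a) (x : H →L[ℂ] H)
    (l : List (H →L[ℂ] H)) (hl : ∀ e ∈ l, e ∈ A ∧ IsStarProjection e) :
    ∀ e ∈ l, e * pinchList x l = pinchList x l * e := by
  induction l with
  | nil => intro e he; simp at he
  | cons e l ih =>
    have h1 := hl e (List.mem_cons_self)
    have hee : e * e = e := h1.2.isIdempotentElem.eq
    have ih' := ih fun e' he' => hl e' (List.mem_cons_of_mem _ he')
    intro e' he'
    set T := pinchList x l with hT
    show e' * (e * T * e + (1 - e) * T * (1 - e)) = (e * T * e + (1 - e) * T * (1 - e)) * e'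
    rw [List.mem_cons] at he'
    rcases he' with rfl | he'
    · have a1 : e' * (1 - e') = 0 := by rw [mul_sub, mul_one, hee, sub_self]
      have a2 : (1 - e') * e' = 0 := by rw [sub_mul, one_mul, hee, sub_self]
      rw [mul_add, add_mul]
      have b1 : e' * (e' * T * e') = e' * T * e' := by rw [← mul_assoc, ← mul_assoc, hee]
      have b2 : e' * ((1 - e') * T * (1 - e')) = 0 := by
        rw [← mul_assoc, ← mul_assoc, a1, zero_mul, zero_mul]
      have b3 : e' * T * e' * e' = e' * T * e' := by rw [mul_assoc, hee]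
      have b4 : (1 - e') * T * (1 - e') * e' = 0 := by rw [mul_assoc, a2, mul_zero]
      rw [b1, b2, b3, b4]
    · have c1 : e' * T = T * e' := ih' e' he'
      have c2 : e' * e = e * e' := hcomm _ (hl e' (List.mem_cons_of_mem _ he')).1 _ h1.1
      have c3 : e' * (1 - e) = (1 - e) * e' := by
        rw [mul_sub, sub_mul, mul_one, one_mul, c2]
      rw [mul_add, add_mul]
      congr 1
      · calc e' * (e * T * e) = (e' * e) * T * e := by simp only [mul_assoc]
          _ = e * (e' * T) * e := by rw [c2]; simp only [mul_assoc]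
          _ = e * T * (e' * e) := by rw [c1]; simp only [mul_assoc]
          _ = e * T * e * e' := by rw [c2]; simp only [mul_assoc]
      · calc e' * ((1 - e) * T * (1 - e)) = (e' * (1 - e)) * T * (1 - e) := by
              simp only [mul_assoc]
          _ = (1 - e) * (e' * T) * (1 - e) := by rw [c3]; simp only [mul_assoc]
          _ = (1 - e) * T * (e' * (1 - e)) := by rw [c1]; simp only [mul_assoc]
          _ = (1 - e) * T * (1 - e) * e' := by rw [c3]; simp only [mul_assoc]

end Vale.Agent.P078
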