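import Vale.Agent.P078.DefsExpect
import Vale.Agent.P078.Proj

/-!
# P078: thin MASAs have no normal conditional expectation; thinness passes along normal
representations
-/

namespace Vale.Agent.P078

open scoped InnerProductSpace

variable {H : Type*} [NormedAddCommGroup H] [InnerProductSpace ℂ H] [CompleteSpace H]
variable {M A : StarSubalgebra ℂ (H →L[ℂ] H)}

lemma norm_compress_swap {q f : H →L[ℂ] H} (hq : IsStarProjection q) (hf : IsStarProjection f) :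
    ‖f * q * f‖ = ‖q * f * q‖ := by
  have h1 : (q * f) * star (q * f) = q * f * q := by
    rw [star_mul, hf.isSelfAdjoint.star_eq, hq.isSelfAdjoint.star_eq, mul_assoc,
      ← mul_assoc f, hf.isIdempotentElem.eq, mul_assoc]
  have h2 : star (q * f) * (q * f) = f * q * f := by
    rw [star_mul, hf.isSelfAdjoint.star_eq, hq.isSelfAdjoint.star_eq, mul_assoc,
      ← mul_assoc q, hq.isIdempotentElem.eq, mul_assoc]
  rw [← h1, ← h2, CStarRing.norm_self_mul_star, CStarRing.norm_star_mul_self]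

theorem IsThin.no_normal_expectation [Nontrivial H] (hAM : A ≤ M)
    (hcomm : ∀ a ∈ A, ∀ b ∈ A, a * b = b * a) (hT : IsThin M A)
    (E : (H →L[ℂ] H) →ₗ[ℂ] (H →L[ℂ] H)) : ¬ IsNormalExpectation M A E := by
  intro hE
  obtain ⟨ξ, hξ⟩ : ∃ ξ : H, ‖ξ‖ = 1 := by
    obtain ⟨v, hv⟩ := exists_ne (0 : H)
    exact ⟨(‖v‖⁻¹ : ℂ) • v, by
      rw [norm_smul, norm_inv, Complex.norm_real, norm_norm,
        inv_mul_cancel₀ (norm_ne_zero_iff.mpr hv)]⟩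
  obtain ⟨F, δ, hδ, hn⟩ := hE.normal ξ (1 / 2) (by norm_num)
  obtain ⟨q, n, f, ⟨hqM, hqp⟩, hf, hqF, hqf⟩ := hT F δ (1 / 4) hδ (by norm_num)
  have hfP : IsPart A f 1 := ⟨hf.mem, hf.proj, hf.orth, hf.sum_eq_one⟩
  have h1 := hn q hqM hqp hqF
  have hEq : E q ∈ A := hE.range q hqM
  have h2 : ∀ i, f i * E q * f i = E (f i * q * f i) :=
    fun i => (hE.bimod _ (hf.mem i) q hqM _ (hf.mem i)).symm
  have h3 : E q = ∑ i, f i * E q * f i := by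
    have : ∀ i, f i * E q * f i = E q * f i := by
      intro i
      rw [hcomm _ (hf.mem i) _ hEq, mul_assoc, (hf.proj i).isIdempotentElem.eq]
    simp_rw [this]
    rw [← Finset.mul_sum, hf.sum_eq_one, mul_one]
  have h4 : ‖⟪ξ, E q ξ⟫_ℂ‖ ≤ 1 / 4 := by
    have h5 : ⟪ξ, E q ξ⟫_ℂ = ∑ i, ⟪f i ξ, E (f i * q * f i) (f i ξ)⟫_ℂ := by
      conv_lhs => rw [h3]
      rw [sum_apply, inner_sum]
      apply Finset.sum_congr rfl
      intro i _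
      rw [← h2 i]
      simp only [mul_apply']
      rw [proj_apply_apply (hf.proj i), inner_sa (hf.proj i).isSelfAdjoint,
        proj_apply_apply (hf.proj i)]
    rw [h5]
    calc ‖∑ i, ⟪f i ξ, E (f i * q * f i) (f i ξ)⟫_ℂ‖
        ≤ ∑ i, ‖⟪f i ξ, E (f i * q * f i) (f i ξ)⟫_ℂ‖ := norm_sum_le _ _
      _ ≤ ∑ i, 1 / 4 * ‖f i ξ‖ ^ 2 := by
          apply Finset.sum_le_sum
          intro i _
          have h6 : ‖E (f i * q * f i)‖ ≤ 1 / 4 :=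
            ((hE.contr _ (mul_mem (mul_mem (hAM (hf.mem i)) hqM) (hAM (hf.mem i)))).trans
              (norm_compress_swap hqp (hf.proj i)).le).trans (hqf i)
          calc ‖⟪f i ξ, E (f i * q * f i) (f i ξ)⟫_ℂ‖
              ≤ ‖f i ξ‖ * ‖E (f i * q * f i) (f i ξ)‖ := norm_inner_le_norm _ _
            _ ≤ ‖f i ξ‖ * (‖E (f i * q * f i)‖ * ‖f i ξ‖) := by
                gcongr
                exact (E (f i * q * f i)).le_opNorm _
            _ ≤ ‖f i ξ‖ * (1 / 4 * ‖f i ξ‖) := by gcongr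
            _ = 1 / 4 * ‖f i ξ‖ ^ 2 := by ring
      _ = 1 / 4 := by
          rw [← Finset.mul_sum, hfP.sum_norm_sq]
          simp [hξ]
  have h7 : ⟪ξ, E (1 - q) ξ⟫_ℂ = 1 - ⟪ξ, E q ξ⟫_ℂ := by
    rw [map_sub, hE.fix 1 (one_mem A), sub_apply, inner_sub_right, one_apply_eq_self,
      inner_self_eq_norm_sq_to_K, hξ]
    simp
  rw [h7] at h1
  have h8 : (1 : ℝ) ≤ ‖1 - ⟪ξ, E q ξ⟫_ℂ‖ + ‖⟪ξ, E q ξ⟫_ℂ‖ := by
    calc (1 : ℝ) = ‖(1 : ℂ)‖ := by simp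
      _ = ‖(1 - ⟪ξ, E q ξ⟫_ℂ) + ⟪ξ, E q ξ⟫_ℂ‖ := by rw [sub_add_cancel]
      _ ≤ _ := norm_add_le _ _
  linarith

theorem IsThin.map {K : Type*} [NormedAddCommGroup K] [InnerProductSpace ℂ K] [CompleteSpace K]
    {M₀ A₀ : StarSubalgebra ℂ (K →L[ℂ] K)} (h₀ : IsThin M₀ A₀)
    (π : (K →L[ℂ] K) →⋆ₐ[ℂ] (H →L[ℂ] H)) (hπ : IsNormalRep π) (hπM : ∀ T ∈ M₀, π T ∈ M)
    (hπA : ∀ a ∈ A₀, π a ∈ A) : IsThin M A := by
  classical
  intro F δ κ hδ hκ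
  choose F₀ δ₀ hδ₀ hq₀ using fun ξ => hπ ξ δ hδ
  set S : ℝ := ∑ ξ ∈ F, (δ₀ ξ)⁻¹ with hS
  have hSnn : 0 ≤ S := Finset.sum_nonneg fun ξ _ => (inv_pos.mpr (hδ₀ ξ)).le
  have hmin : ∀ ξ ∈ F, (S + 1)⁻¹ ≤ δ₀ ξ := by
    intro ξ hξ
    have h1 : (δ₀ ξ)⁻¹ ≤ S :=
      Finset.single_le_sum (f := fun ξ => (δ₀ ξ)⁻¹) (fun ξ _ => (inv_pos.mpr (hδ₀ ξ)).le) hξ
    rw [inv_le_comm₀ (by positivity) (hδ₀ ξ)]
    linarith
  obtain ⟨q, n, f, ⟨hqM, hqp⟩, hf, hqF, hqf⟩ :=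
    h₀ (F.biUnion F₀) (S + 1)⁻¹ κ (by positivity) hκ
  refine ⟨π q, n, fun i => π (f i), ⟨hπM q hqM, hqp.map π⟩, ?_, ?_, ?_⟩
  · refine ⟨fun i => hπA _ (hf.mem i), fun i => (hf.proj i).map π, ?_, ?_⟩
    · intro i j hij
      rw [← map_mul, hf.orth i j hij, map_zero]
    · rw [← map_sum, hf.sum_eq_one, map_one]
  · intro ξ hξ
    apply hq₀ ξ q hqp
    intro ζ hζ
    exact (hqF ζ (Finset.mem_biUnion.mpr ⟨ξ, hξ, hζ⟩)).trans_le (hmin ξ hξ)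
  · intro i
    rw [← map_mul, ← map_mul]
    exact (NonUnitalStarAlgHom.norm_apply_le π _).trans (hqf i)

end Vale.Agent.P078
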