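import Vale.Agent.P078.DefsThin
import Vale.Agent.P078.Upper

/-!
# P078: diffuse MASAs of `B(H)` are thin
-/

namespace Vale.Agent.P078

open scoped InnerProductSpace

variable {H : Type*} [NormedAddCommGroup H] [InnerProductSpace ℂ H] [CompleteSpace H]
variable {A : StarSubalgebra ℂ (H →L[ℂ] H)}

lemma isVN_top : IsVN (⊤ : StarSubalgebra ℂ (H →L[ℂ] H)) := fun _ _ => by trivial

theorem IsMASA.thin_of_diffuse (hA : IsMASA ⊤ A) (hd : IsDiffuse A) : IsThin ⊤ A := by
  classical
  intro F δ κ hδ hκ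
  obtain ⟨η, I, _, e, he, hF⟩ := hA.exists_coarse F hδ
  set u : I → H := fun i => nrm (e i η) with hu
  set q := frameProj u with hq
  have ho : ∀ i k, i ≠ k → ⟪u i, u k⟫_ℂ = 0 := by
    intro i k hik
    simp only [hu, nrm]
    rw [inner_smul_left, inner_smul_right, he.inner_eq_zero hik]
    simp
  have hqp : IsStarProjection q := frameProj_isStarProjection u ho (fun i => nrm_norm _)
  have hqe : ∀ i, q (e i η) = e i η := by
    intro i
    rw [hq, frameProj_apply, Finset.sum_eq_single i]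
    · exact inner_nrm_smul _
    · intro k _ hki
      simp only [hu, nrm]
      rw [inner_smul_left, he.inner_eq_zero hki]
      simp
    · intro h; exact absurd (Finset.mem_univ i) h
  set M : ℝ := ∑ k, (‖e k η‖⁻¹) ^ 2 with hM
  have hMnn : 0 ≤ M := Finset.sum_nonneg fun k _ => sq_nonneg _
  set κ' : ℝ := κ / (M + 1) with hκ'
  have hκ'pos : 0 < κ' := by positivity
  obtain ⟨U, _, g, hg, hgs⟩ := hA.exists_fine hd η hκ'pos
  have hcomm : ∀ w k (y : H), g w (e k y) = e k (g w y) := by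
    intro w k y
    rw [← mul_apply', hA.comm _ (hg.mem w) _ (he.mem k)]
    rfl
  have hoff : ∀ w i k, i ≠ k → ⟪u i, g w (u k)⟫_ℂ = 0 := by
    intro w i k hik
    simp only [hu, nrm]
    rw [map_smul, inner_smul_left, inner_smul_right, hcomm, he.inner_eq_zero hik]
    simp
  have hdiag : ∀ w i, ‖⟪u i, g w (u i)⟫_ℂ‖ ≤ (‖e i η‖⁻¹) ^ 2 * κ' := by
    intro w i
    rw [proj_inner_self (hg.proj w), Complex.norm_real, Real.norm_eq_abs,
      abs_of_nonneg (sq_nonneg _)]
    have h1 : ‖g w (u i)‖ ≤ ‖e i η‖⁻¹ * ‖g w η‖ := by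
      simp only [hu, nrm]
      rw [map_smul, norm_smul, Complex.norm_real, Real.norm_eq_abs,
        abs_of_nonneg (inv_nonneg.mpr (norm_nonneg _)), hcomm]
      exact mul_le_mul_of_nonneg_left (proj_norm_apply_le (he.proj i) _)
        (inv_nonneg.mpr (norm_nonneg _))
    calc ‖g w (u i)‖ ^ 2 ≤ (‖e i η‖⁻¹ * ‖g w η‖) ^ 2 := by gcongr
      _ = (‖e i η‖⁻¹) ^ 2 * ‖g w η‖ ^ 2 := by ring
      _ ≤ (‖e i η‖⁻¹) ^ 2 * κ' := mul_le_mul_of_nonneg_left (hgs w) (sq_nonneg _)
  have hbound : ∀ w, ‖q * g w * q‖ ≤ κ := by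
    intro w
    calc ‖q * g w * q‖ ≤ ∑ i, ∑ k, ‖⟪u i, g w (u k)⟫_ℂ‖ :=
          norm_compress_le u (fun i => nrm_norm_le _) (g w)
      _ = ∑ i, ‖⟪u i, g w (u i)⟫_ℂ‖ := by
          apply Finset.sum_congr rfl
          intro i _
          rw [Finset.sum_eq_single i]
          · intro k _ hki
            rw [hoff w i k hki.symm, norm_zero]
          · intro h; exact absurd (Finset.mem_univ i) h
      _ ≤ ∑ i, (‖e i η‖⁻¹) ^ 2 * κ' := Finset.sum_le_sum fun i _ => hdiag w i
      _ = M * κ' := by rw [hM, Finset.sum_mul]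
      _ ≤ κ := by
          rw [hκ', mul_div_assoc', div_le_iff₀ (by positivity)]
          nlinarith
  set E := (Fintype.equivFin U).symm with hE
  refine ⟨q, Fintype.card U, fun j => g (E j), ⟨by trivial, hqp⟩, ?_, ?_, fun j => hbound _⟩
  · refine ⟨fun j => hg.mem _, fun j => hg.proj _, ?_, ?_⟩
    · intro i j hij
      exact hg.orth _ _ (fun h => hij (E.injective h))
    · rw [← hg.sum_eq]
      exact Equiv.sum_comp E g
  · intro ξ hξ
    obtain ⟨c, hc⟩ := hF ξ hξ
    set y := ∑ i, c i • e i η with hy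
    have hqy : q y = y := by
      rw [hy, map_sum]
      apply Finset.sum_congr rfl
      intro i _
      rw [map_smul, hqe]
    have h1 : (1 - q) ξ = (1 - q) (ξ - y) := by
      simp [hqy]
    rw [h1]
    exact (proj_norm_apply_le hqp.one_sub _).trans_lt hc

end Vale.Agent.P078
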