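import Vale.Agent.P078.DefsThin
import Vale.Agent.P078.Lower

/-!
# P078: the lower bound for thin MASAs
-/

namespace Vale.Agent.P078

open scoped InnerProductSpace

variable {H : Type*} [NormedAddCommGroup H] [InnerProductSpace ℂ H] [CompleteSpace H]
variable {M A : StarSubalgebra ℂ (H →L[ℂ] H)}

/-- The self-adjoint unitary `2 e - 1` attached to a projection `e`. -/
noncomputable def reflP (e : H →L[ℂ] H) : H →L[ℂ] H := (2 : ℂ) • e - 1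

lemma reflP_apply (e : H →L[ℂ] H) (ζ : H) : reflP e ζ = (2 : ℂ) • e ζ - ζ := by
  simp [reflP]

lemma reflP_sa {e : H →L[ℂ] H} (he : IsStarProjection e) : IsSelfAdjoint (reflP e) := by
  unfold IsSelfAdjoint reflP
  rw [star_sub, star_smul, he.isSelfAdjoint.star_eq]
  simp

lemma reflP_norm_le {e : H →L[ℂ] H} (he : IsStarProjection e) : ‖reflP e‖ ≤ 1 := by
  have hP := IsPart.pair (A := (⊤ : StarSubalgebra ℂ (H →L[ℂ] H))) (e := 1) (by trivial)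
    (IsStarProjection.one _) (by trivial) he (mul_one _)
  have h1 := hP.norm_sum_smul_le (fun b : Bool => if b then (1 : ℂ) else -1) zero_le_one
    (by intro b; cases b <;> simp)
  have h2 : ∑ b : Bool, (if b then (1 : ℂ) else -1) • (if b then e else 1 - e) = reflP e := by
    rw [Fintype.sum_bool]
    simp only [if_true, reflP]
    simp only [Bool.false_eq_true, if_false, one_smul, neg_smul, two_smul]
    abel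
  rwa [h2] at h1

/-- Quadratic form of a pinching of `2 e - 1`. -/
lemma inner_pinching_reflP {r : ℕ} {p : Fin r → (H →L[ℂ] H)} (hp : IsPart A p 1)
    {e : H →L[ℂ] H} (he : IsStarProjection e) (ζ : H) :
    ⟪ζ, pinching p (reflP e) ζ⟫_ℂ = ((2 * ∑ j, ‖e (p j ζ)‖ ^ 2 - ‖ζ‖ ^ 2 : ℝ) : ℂ) := by
  unfold pinching
  rw [sum_apply, inner_sum]
  have h1 : ∀ j, ⟪ζ, (p j * reflP e * p j) ζ⟫_ℂ
      = ((2 * ‖e (p j ζ)‖ ^ 2 - ‖p j ζ‖ ^ 2 : ℝ) : ℂ) := by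
    intro j
    rw [mul_apply', mul_apply', ← inner_sa (hp.proj j).isSelfAdjoint, reflP_apply, inner_sub_right,
      inner_smul_right, inner_self_eq_norm_sq_to_K, proj_inner_self he]
    push_cast
    rfl
  simp_rw [h1]
  rw [← Complex.ofReal_sum]
  congr 1
  rw [Finset.sum_sub_distrib, hp.sum_norm_sq, Finset.mul_sum]
  simp

/-- `‖e f‖^2 = ‖e f e‖` for projections. -/
lemma norm_mul_sq_le {e f : H →L[ℂ] H} (he : IsStarProjection e) (hf : IsStarProjection f)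
    {κ : ℝ} (h : ‖e * f * e‖ ≤ κ) : ‖e * f‖ ^ 2 ≤ κ := by
  have h1 : (e * f) * star (e * f) = e * f * e := by
    rw [star_mul, he.isSelfAdjoint.star_eq, hf.isSelfAdjoint.star_eq, mul_assoc, ← mul_assoc f,
      hf.isIdempotentElem.eq, mul_assoc]
  have h2 := CStarRing.norm_self_mul_star (x := e * f)
  rw [h1] at h2
  rw [sq, ← h2]
  exact h

/-- lower bound for the diagonal part -/
lemma thin_lower {r : ℕ} {p : Fin r → (H →L[ℂ] H)} (hpP : IsPart A p 1)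
    {q0 : H →L[ℂ] H} (hq0 : IsStarProjection q0) {ξ : H} (hqξ : q0 ξ = ξ) (hξ0 : 0 < ‖ξ‖) :
    ‖ξ‖ ^ 2 ≤ r * ∑ j, ‖q0 (p j ξ)‖ ^ 2 := by
  have hS1 : ∀ j, (‖p j ξ‖ ^ 2) ^ 2 ≤ ‖q0 (p j ξ)‖ ^ 2 * ‖ξ‖ ^ 2 := by
    intro j
    have e1 : ⟪q0 (p j ξ), ξ⟫_ℂ = ((‖p j ξ‖ ^ 2 : ℝ) : ℂ) := by
      rw [inner_sa hq0.isSelfAdjoint, hqξ, inner_sa (hpP.proj j).isSelfAdjoint,
        proj_inner_self (hpP.proj j)]
    have e2 : ‖p j ξ‖ ^ 2 ≤ ‖q0 (p j ξ)‖ * ‖ξ‖ := by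
      have := norm_inner_le_norm (𝕜 := ℂ) (q0 (p j ξ)) ξ
      rwa [e1, Complex.norm_real, Real.norm_eq_abs, abs_of_nonneg (sq_nonneg _)] at this
    calc (‖p j ξ‖ ^ 2) ^ 2 ≤ (‖q0 (p j ξ)‖ * ‖ξ‖) ^ 2 := by gcongr
      _ = ‖q0 (p j ξ)‖ ^ 2 * ‖ξ‖ ^ 2 := by ring
  have h1 : ∑ j, ‖p j ξ‖ ^ 2 = ‖ξ‖ ^ 2 := by
    have := hpP.sum_norm_sq ξ
    simpa using this
  have h2 := sq_sum_le_card_mul_sum_sq (s := (Finset.univ : Finset (Fin r)))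
    (f := fun j => ‖p j ξ‖ ^ 2)
  rw [h1] at h2
  simp only [Finset.card_univ, Fintype.card_fin] at h2
  have h3 : ∑ j, (‖p j ξ‖ ^ 2) ^ 2 ≤ (∑ j, ‖q0 (p j ξ)‖ ^ 2) * ‖ξ‖ ^ 2 := by
    rw [Finset.sum_mul]
    exact Finset.sum_le_sum fun j _ => hS1 j
  have h4 : (‖ξ‖ ^ 2) ^ 2 ≤ (r * ∑ j, ‖q0 (p j ξ)‖ ^ 2) * ‖ξ‖ ^ 2 := by
    calc (‖ξ‖ ^ 2) ^ 2 ≤ r * ∑ j, (‖p j ξ‖ ^ 2) ^ 2 := h2
      _ ≤ r * ((∑ j, ‖q0 (p j ξ)‖ ^ 2) * ‖ξ‖ ^ 2) := by gcongr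
      _ = (r * ∑ j, ‖q0 (p j ξ)‖ ^ 2) * ‖ξ‖ ^ 2 := by ring
  have h5 : 0 < ‖ξ‖ ^ 2 := by positivity
  rw [sq (‖ξ‖ ^ 2)] at h4
  exact le_of_mul_le_mul_right h4 h5

/-- upper bound for the part cut by the fine partition -/
lemma thin_upper (hcomm : ∀ a ∈ A, ∀ b ∈ A, a * b = b * a) {r n : ℕ}
    {p : Fin r → (H →L[ℂ] H)} (hpP : IsPart A p 1) {f : Fin n → (H →L[ℂ] H)} (hfP : IsPart A f 1)
    {q0 : H →L[ℂ] H} (hq0 : IsStarProjection q0) {κ : ℝ} (hcut : ∀ i, ‖q0 * f i * q0‖ ≤ κ)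
    (ξ : H) : ∑ i, ∑ j, ‖q0 (p j (f i ξ))‖ ^ 2 ≤ κ * ‖ξ‖ ^ 2 := by
  have hpyth : ∑ i, ‖f i ξ‖ ^ 2 = ‖ξ‖ ^ 2 := by
    have := hfP.sum_norm_sq ξ
    simpa using this
  have hT1 : ∀ i j, ‖q0 (p j (f i ξ))‖ ^ 2 ≤ κ * ‖p j (f i ξ)‖ ^ 2 := by
    intro i j
    have c1 : p j (f i ξ) = f i (p j (f i ξ)) := by
      have c0 : ∀ η, p j (f i η) = f i (p j η) := by
        intro η
        have : (p j * f i) η = (f i * p j) η := by rw [hcomm _ (hpP.mem j) _ (hfP.mem i)]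
        exact this
      rw [← c0, proj_apply_apply (hfP.proj i)]
    have c2 : q0 (p j (f i ξ)) = (q0 * f i) (p j (f i ξ)) := by
      rw [mul_apply']
      exact congrArg q0 c1
    have c3 := norm_mul_sq_le hq0 (hfP.proj i) (hcut i)
    calc ‖q0 (p j (f i ξ))‖ ^ 2 = ‖(q0 * f i) (p j (f i ξ))‖ ^ 2 := by rw [← c2]
      _ ≤ (‖q0 * f i‖ * ‖p j (f i ξ)‖) ^ 2 := by
          gcongr
          exact (q0 * f i).le_opNorm _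
      _ = ‖q0 * f i‖ ^ 2 * ‖p j (f i ξ)‖ ^ 2 := by ring
      _ ≤ κ * ‖p j (f i ξ)‖ ^ 2 := by gcongr
  calc ∑ i, ∑ j, ‖q0 (p j (f i ξ))‖ ^ 2 ≤ ∑ i, κ * ‖f i ξ‖ ^ 2 := by
        apply Finset.sum_le_sum
        intro i _
        calc ∑ j, ‖q0 (p j (f i ξ))‖ ^ 2 ≤ ∑ j, κ * ‖p j (f i ξ)‖ ^ 2 :=
              Finset.sum_le_sum fun j _ => hT1 i j
          _ = κ * ‖f i ξ‖ ^ 2 := by
              rw [← Finset.mul_sum, hpP.sum_norm_sq]; simp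
    _ = κ * ‖ξ‖ ^ 2 := by rw [← Finset.mul_sum, hpyth]

/-- the key identity -/
lemma thin_key (hcomm : ∀ a ∈ A, ∀ b ∈ A, a * b = b * a) {r n : ℕ}
    {p : Fin r → (H →L[ℂ] H)} (hpP : IsPart A p 1) {f : Fin n → (H →L[ℂ] H)} (hfP : IsPart A f 1)
    {q0 : H →L[ℂ] H} (hq0 : IsStarProjection q0) {a : H →L[ℂ] H} (haA : a ∈ A) (ξ : H) :
    ⟪ξ, (pinching p (reflP q0) - a) ξ⟫_ℂ
        - ∑ i, ⟪f i ξ, (pinching p (reflP q0) - a) (f i ξ)⟫_ℂ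
      = ((2 * ∑ j, ‖q0 (p j ξ)‖ ^ 2 - 2 * ∑ i, ∑ j, ‖q0 (p j (f i ξ))‖ ^ 2 : ℝ) : ℂ) := by
  have hφ : ∀ ζ, ⟪ζ, (pinching p (reflP q0) - a) ζ⟫_ℂ
      = ((2 * ∑ j, ‖q0 (p j ζ)‖ ^ 2 - ‖ζ‖ ^ 2 : ℝ) : ℂ) - ⟪ζ, a ζ⟫_ℂ := by
    intro ζ
    rw [sub_apply, inner_sub_right, inner_pinching_reflP hpP hq0]
  have hpyth : ∑ i, ‖f i ξ‖ ^ 2 = ‖ξ‖ ^ 2 := by
    have := hfP.sum_norm_sq ξ
    simpa using this
  simp_rw [hφ]
  rw [Finset.sum_sub_distrib, ← inner_diag hcomm hfP haA ξ, ← Complex.ofReal_sum,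
    Finset.sum_sub_distrib, hpyth, ← Finset.mul_sum]
  push_cast
  ring

/-- the bound coming from the compression by `q` -/
lemma thin_compress {n : ℕ} {f : Fin n → (H →L[ℂ] H)} (hfP : IsPart A f 1)
    {q y : H →L[ℂ] H} (hq : IsStarProjection q) {ξ : H} (hξle : ‖ξ‖ ≤ 1) {δ Y ε : ℝ}
    (hδ0 : 0 ≤ δ) (hY0 : 0 ≤ Y)
    (hδξ : ‖(1 - q) ξ‖ ≤ δ) (hδf : ∀ i, ‖(1 - q) (f i ξ)‖ ≤ δ) (hY : ‖y‖ ≤ Y)
    (hE : ‖q * y * q‖ ≤ ε) :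
    ‖⟪ξ, y ξ⟫_ℂ - ∑ i, ⟪f i ξ, y (f i ξ)⟫_ℂ‖ ≤ 2 * ε * ‖ξ‖ ^ 2 + 2 * (Y * δ * (1 + n)) := by
  have hpyth : ∑ i, ‖f i ξ‖ ^ 2 = ‖ξ‖ ^ 2 := by
    have := hfP.sum_norm_sq ξ
    simpa using this
  have hvle : ∀ i, ‖f i ξ‖ ≤ 1 := by
    intro i
    exact (proj_norm_apply_le (hfP.proj i) ξ).trans hξle
  have h1 : ‖⟪ξ, y ξ⟫_ℂ‖ ≤ ε * ‖ξ‖ ^ 2 + 2 * Y * δ * 1 := by
    refine (norm_inner_le_of_compress hq hδξ hY hE).trans ?_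
    gcongr
  have h2 : ‖∑ i, ⟪f i ξ, y (f i ξ)⟫_ℂ‖ ≤ ε * ‖ξ‖ ^ 2 + 2 * Y * δ * n := by
    calc ‖∑ i, ⟪f i ξ, y (f i ξ)⟫_ℂ‖ ≤ ∑ i, ‖⟪f i ξ, y (f i ξ)⟫_ℂ‖ := norm_sum_le _ _
      _ ≤ ∑ i, (ε * ‖f i ξ‖ ^ 2 + 2 * Y * δ * 1) := by
          apply Finset.sum_le_sum
          intro i _
          refine (norm_inner_le_of_compress hq (hδf i) hY hE).trans ?_
          have := hvle i
          gcongr
      _ = ε * ‖ξ‖ ^ 2 + 2 * Y * δ * n := by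
          rw [Finset.sum_add_distrib, ← Finset.mul_sum, hpyth, Finset.sum_const,
            Finset.card_univ, nsmul_eq_mul, Fintype.card_fin]
          ring
  calc _ ≤ ‖⟪ξ, y ξ⟫_ℂ‖ + ‖∑ i, ⟪f i ξ, y (f i ξ)⟫_ℂ‖ := norm_sub_le _ _
    _ ≤ (ε * ‖ξ‖ ^ 2 + 2 * Y * δ * 1) + (ε * ‖ξ‖ ^ 2 + 2 * Y * δ * n) := add_le_add h1 h2
    _ = 2 * ε * ‖ξ‖ ^ 2 + 2 * (Y * δ * (1 + n)) := by ring

/-- the final arithmetic -/
lemma thin_arith {r n ε X S T κ g δ : ℝ} (hr0 : 0 ≤ r) (hn0 : 0 ≤ n) (hg : g = 1 - r * ε)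
    (hgpos : 0 < g) (hκ : κ = g / (2 * (r + 1))) (hδ : δ = g / (16 * (r + 1) ^ 2 * (1 + n)))
    (hX4 : 1 / 4 ≤ X) (hSlow : X ≤ r * S) (hTT : T ≤ κ * X)
    (h4 : 2 * S - 2 * T ≤ 2 * ε * X + 2 * ((r + 1) * δ * (1 + n))) : False := by
  have h3 : (r + 1) * δ * (1 + n) = g / (16 * (r + 1)) := by
    rw [hδ]; field_simp
  rw [h3] at h4
  have h5 : S ≤ (κ + ε) * X + g / (16 * (r + 1)) := by linarith
  have h6 : r * S ≤ r * ((κ + ε) * X + g / (16 * (r + 1))) := by gcongr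
  have h7 : r * κ ≤ g / 2 := by
    rw [hκ, mul_div_assoc', div_le_div_iff₀ (by positivity) (by norm_num)]
    nlinarith
  have h8 : r * (g / (16 * (r + 1))) ≤ g / 16 := by
    rw [mul_div_assoc', div_le_div_iff₀ (by positivity) (by norm_num)]
    nlinarith
  have h9 : X ≤ (g / 2 + r * ε) * X + g / 16 := by
    have hX0 : 0 ≤ X := by linarith
    calc X ≤ r * S := hSlow
      _ ≤ r * ((κ + ε) * X + g / (16 * (r + 1))) := h6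
      _ = (r * κ + r * ε) * X + r * (g / (16 * (r + 1))) := by ring
      _ ≤ (g / 2 + r * ε) * X + g / 16 := by gcongr
  have h10 : g / 2 * X ≤ g / 16 := by
    have : (g / 2 + r * ε) * X = X - g / 2 * X := by
      rw [hg]; ring
    linarith
  nlinarith

theorem IsMASA.one_le_of_thin [Nontrivial H] (hA : IsMASA M A) (hT : IsThin M A) {r : ℕ} {ε : ℝ}
    (hall : ∀ x ∈ M, IsSelfAdjoint x → SoPavable M A x ε r) : 1 ≤ r * ε := by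
  classical
  have hε : 0 ≤ ε := by
    obtain ⟨p, a, q, -, -, -, -, h⟩ := hall 1 (one_mem M) (IsSelfAdjoint.one _) ∅ 1 one_pos
    rw [norm_one, mul_one] at h
    exact (norm_nonneg _).trans h
  by_contra hlt
  rw [not_le] at hlt
  have hr0 : (0 : ℝ) ≤ r := Nat.cast_nonneg r
  obtain ⟨v0, hv0⟩ := exists_ne (0 : H)
  obtain ⟨ξ0, hξ0⟩ : ∃ ξ0 : H, ‖ξ0‖ = 1 := ⟨_, norm_smul_inv_norm (𝕜 := ℂ) hv0⟩
  obtain ⟨g, hg⟩ : ∃ g : ℝ, g = 1 - r * ε := ⟨_, rfl⟩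
  have hgpos : 0 < g := by linarith
  obtain ⟨κ, hκ⟩ : ∃ κ : ℝ, κ = g / (2 * (r + 1)) := ⟨_, rfl⟩
  have hκpos : 0 < κ := by rw [hκ]; positivity
  obtain ⟨q0, n, f, ⟨hq0M, hq0⟩, hf, hFδ0, hcut⟩ := hT {ξ0} (1 / 2) κ (by norm_num) hκpos
  have hfP : IsPart A f 1 := ⟨hf.mem, hf.proj, hf.orth, hf.sum_eq_one⟩
  have hxM : reflP q0 ∈ M := sub_mem (M.smul_mem hq0M 2) (one_mem M)
  have hxn : ‖reflP q0‖ ≤ 1 := reflP_norm_le hq0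
  obtain ⟨ξ, hξ⟩ : ∃ ξ : H, ξ = q0 ξ0 := ⟨_, rfl⟩
  have hqξ : q0 ξ = ξ := by rw [hξ]; exact proj_apply_apply hq0 ξ0
  have hξle : ‖ξ‖ ≤ 1 := by
    have := proj_norm_apply_le hq0 ξ0
    rwa [hξ0, ← hξ] at this
  have hξge : 1 / 2 ≤ ‖ξ‖ := by
    have h1 := hFδ0 ξ0 (Finset.mem_singleton_self _)
    have h2 : ξ0 = ξ + (1 - q0) ξ0 := by simp [hξ]
    have h3 : ‖ξ0‖ ≤ ‖ξ‖ + ‖(1 - q0) ξ0‖ := by
      conv_lhs => rw [h2]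
      exact norm_add_le _ _
    rw [hξ0] at h3
    linarith
  have hn0 : (0 : ℝ) ≤ n := Nat.cast_nonneg n
  obtain ⟨δ, hδ⟩ : ∃ δ : ℝ, δ = g / (16 * ((r : ℝ) + 1) ^ 2 * (1 + n)) := ⟨_, rfl⟩
  have hδpos : 0 < δ := by rw [hδ]; positivity
  obtain ⟨p, a, q, hp, ⟨haA, hasa, hanorm⟩, ⟨_, hq⟩, hFδ, hmain⟩ :=
    hall (reflP q0) hxM (reflP_sa hq0) (insert ξ (Finset.univ.image fun i => f i ξ)) δ hδpos
  have hpP : IsPart A p 1 := ⟨hp.mem, hp.proj, hp.orth, hp.sum_eq_one⟩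
  have hY : ‖pinching p (reflP q0) - a‖ ≤ r + 1 := by
    calc ‖pinching p (reflP q0) - a‖ ≤ ‖pinching p (reflP q0)‖ + ‖a‖ := norm_sub_le _ _
      _ ≤ r * ‖reflP q0‖ + ‖reflP q0‖ := add_le_add (norm_pinching_le hpP _) hanorm
      _ ≤ r * 1 + 1 := by gcongr
      _ = r + 1 := by ring
  have hE : ‖q * (pinching p (reflP q0) - a) * q‖ ≤ ε := by
    calc ‖q * (pinching p (reflP q0) - a) * q‖ ≤ ε * ‖reflP q0‖ := hmain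
      _ ≤ ε * 1 := by gcongr
      _ = ε := mul_one _
  have hupper := thin_compress hfP hq hξle hδpos.le (by positivity : (0 : ℝ) ≤ r + 1)
    (hFδ ξ (Finset.mem_insert_self _ _)).le
    (fun i => (hFδ _ (Finset.mem_insert_of_mem
      (Finset.mem_image_of_mem (fun i => f i ξ) (Finset.mem_univ i)))).le) hY hE
  rw [thin_key hA.comm hpP hfP hq0 haA ξ, Complex.norm_real, Real.norm_eq_abs] at hupper
  have h4 := (le_abs_self _).trans hupper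
  have hX4 : 1 / 4 ≤ ‖ξ‖ ^ 2 := by nlinarith
  exact thin_arith hr0 hn0 hg hgpos hκ hδ hX4
    (thin_lower hpP hq0 hqξ (by linarith)) (thin_upper hA.comm hpP hfP hq0 hcut ξ) h4

end Vale.Agent.P078
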