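import Vale.Agent.P078.VN.ThinUpper
import Vale.Agent.P078.VN.ThinLower
import Vale.Agent.P078.VN.DiffuseThin
import Vale.Agent.P078.VN.ThinExtra

/-!
# P078: the so-paving number of a thin MASA of an arbitrary von Neumann algebra
-/

namespace Vale.Agent.P078

open scoped InnerProductSpace

variable {H : Type*} [NormedAddCommGroup H] [InnerProductSpace ℂ H] [CompleteSpace H]
variable {M A : StarSubalgebra ℂ (H →L[ℂ] H)}

theorem IsMASA.pavingNumber_bounds_of_thin [Nontrivial H] (hM : IsVN M) (hA : IsMASA M A)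
    (hT : IsThin M A) {ε : ℝ} (hε : 0 < ε) :
    ((⌈1 / ε⌉₊ : ℕ) : ℕ∞) ≤ pavingNumber M A ε ∧
      pavingNumber M A ε ≤ ((⌊1 / ε⌋₊ + 1 : ℕ) : ℕ∞) := by
  constructor
  · apply le_sInf
    rintro n ⟨r, _, rfl, hr⟩
    have h1 := hA.one_le_of_thin hT hr
    have h2 : 1 / ε ≤ r := by
      rw [div_le_iff₀ hε]; exact h1
    exact_mod_cast Nat.ceil_le.mpr h2
  · apply sInf_le
    refine ⟨⌊1 / ε⌋₊ + 1, by omega, rfl, ?_⟩
    intro x hxM hx
    apply hA.soPavable_of_thin hM hT hxM hx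
    have h1 : 1 / ε < (⌊1 / ε⌋₊ : ℝ) + 1 := Nat.lt_floor_add_one _
    rw [div_lt_iff₀ hε] at h1
    push_cast
    exact h1

end Vale.Agent.P078
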