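import Vale.Agent.P078.VN.Pinch
import Vale.Agent.P078.Moment

/-!
# P078: a random colouring of a partition, operator form
-/

namespace Vale.Agent.P078

open scoped InnerProductSpace

variable {H : Type*} [NormedAddCommGroup H] [InnerProductSpace ℂ H] [CompleteSpace H]
variable {A : StarSubalgebra ℂ (H →L[ℂ] H)}

/-- the pinching along the partition obtained from a colouring -/
lemma pinching_colour_eq {W : Type} [Fintype W] [DecidableEq W] (G : W → (H →L[ℂ] H))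
    (x : H →L[ℂ] H) {r : ℕ} (c : W → Fin r) :
    pinching (fun j => ∑ w, if c w = j then G w else 0) x
      = ∑ w, ∑ w', (if c w = c w' then (1 : ℂ) else 0) • (G w * x * G w') := by
  unfold pinching
  have h2 : ∀ j : Fin r,
      (∑ w, if c w = j then G w else 0) * x * (∑ w, if c w = j then G w else 0)
      = ∑ w, ∑ w', ((if c w = j then (1 : ℂ) else 0) * (if c w' = j then (1 : ℂ) else 0))
          • (G w * x * G w') := by
    intro j
    rw [Finset.sum_mul, Finset.sum_mul]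
    apply Finset.sum_congr rfl
    intro w _
    rw [Finset.mul_sum]
    apply Finset.sum_congr rfl
    intro w' _
    split_ifs <;> simp
  simp_rw [h2]
  rw [Finset.sum_comm]
  apply Finset.sum_congr rfl
  intro w _
  rw [Finset.sum_comm]
  apply Finset.sum_congr rfl
  intro w' _
  rw [← Finset.sum_smul]
  congr 1
  by_cases h : c w = c w'
  · simp [h]
  · simp only [h, if_false]
    apply Finset.sum_eq_zero
    intro j _
    by_cases h1 : c w = j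
    · have h2 : c w' ≠ j := fun h2 => h (h1.trans h2.symm)
      simp [h2]
    · simp [h1]

/-- the operator identity behind the second moment method -/
lemma pinching_colour_sub_eq {W : Type} [Fintype W] [DecidableEq W] {G : W → (H →L[ℂ] H)}
    (hG : IsPart A G 1) (x : H →L[ℂ] H) {r : ℕ} (c : W → Fin r) :
    pinching (fun j => ∑ w, if c w = j then G w else 0) x - ((1 / r : ℝ) : ℂ) • x
          - ((1 - 1 / r : ℝ) : ℂ) • ∑ w, G w * x * G w
      = ∑ e : W × W, ((cInd r e.1 e.2 c : ℝ) : ℂ) • (G e.1 * x * G e.2) := by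
  have hx : ((1 / r : ℝ) : ℂ) • x = ((1 / r : ℝ) : ℂ) • ∑ w, ∑ w', G w * x * G w' := by
    congr 1
    calc x = 1 * x * 1 := by rw [one_mul, mul_one]
      _ = (∑ w, G w) * x * (∑ w, G w) := by rw [hG.sum_eq]
      _ = ∑ w, ∑ w', G w * x * G w' := by
        rw [Finset.sum_mul, Finset.sum_mul]
        apply Finset.sum_congr rfl
        intro w _
        rw [Finset.mul_sum]
  have hd : ∑ w, G w * x * G w
      = ∑ w, ∑ w', (if w = w' then (1 : ℂ) else 0) • (G w * x * G w') := by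
    apply Finset.sum_congr rfl
    intro w _
    rw [Finset.sum_eq_single w]
    · simp
    · intro w' _ hne
      simp [hne.symm]
    · intro h; exact absurd (Finset.mem_univ w) h
  rw [pinching_colour_eq, hd, hx, Fintype.sum_prod_type]
  rw [Finset.smul_sum, Finset.smul_sum, ← Finset.sum_sub_distrib, ← Finset.sum_sub_distrib]
  apply Finset.sum_congr rfl
  intro w _
  rw [Finset.smul_sum, Finset.smul_sum, ← Finset.sum_sub_distrib, ← Finset.sum_sub_distrib]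
  apply Finset.sum_congr rfl
  intro w' _
  rw [smul_smul, ← sub_smul, ← sub_smul]
  congr 1
  unfold cInd
  by_cases h : w = w'
  · subst h
    simp
  · simp only [h, if_false]
    split_ifs <;> simp

lemma sum_norm_sq_q_le_aux {W : Type} [Fintype W] {G : W → (H →L[ℂ] H)}
    (hG : IsPart A G 1) (q : H →L[ℂ] H) {κ : ℝ} (hκ : ∀ w, ‖q * G w‖ ^ 2 ≤ κ) (v : H) :
    ∑ w, ‖q (G w v)‖ ^ 2 ≤ κ * ‖v‖ ^ 2 := by
  have h3 := hG.sum_norm_sq v
  simp only [one_apply_eq_self] at h3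
  rw [← h3, Finset.mul_sum]
  apply Finset.sum_le_sum
  intro w _
  have e1 : q (G w v) = (q * G w) (G w v) := by
    rw [mul_apply', proj_apply_apply (hG.proj w)]
  rw [e1]
  calc ‖(q * G w) (G w v)‖ ^ 2 ≤ (‖q * G w‖ * ‖G w v‖) ^ 2 := by
        have := (q * G w).le_opNorm (G w v)
        gcongr
    _ = ‖q * G w‖ ^ 2 * ‖G w v‖ ^ 2 := by ring
    _ ≤ κ * ‖G w v‖ ^ 2 := by
        have := hκ w
        gcongr

/-- Bessel type bound -/
lemma sum_norm_sq_q_le {W : Type} [Fintype W] {G : W → (H →L[ℂ] H)}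
    (hG : IsPart A G 1) (x q : H →L[ℂ] H) {κ : ℝ} (hκ : ∀ w, ‖q * G w‖ ^ 2 ≤ κ) (ξ : H) :
    ∑ e : W × W, ‖q (G e.1 (x (G e.2 ξ)))‖ ^ 2 ≤ κ * ‖x‖ ^ 2 * ‖ξ‖ ^ 2 := by
  have key : ∀ w', ∑ w, ‖q (G w (x (G w' ξ)))‖ ^ 2 ≤ κ * ‖x‖ ^ 2 * ‖G w' ξ‖ ^ 2 := by
    intro w'
    have hκ0 : 0 ≤ κ := le_trans (sq_nonneg _) (hκ w')
    refine (sum_norm_sq_q_le_aux hG q hκ (x (G w' ξ))).trans ?_
    rw [mul_assoc]
    apply mul_le_mul_of_nonneg_left _ hκ0
    rw [← mul_pow]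
    have := x.le_opNorm (G w' ξ)
    gcongr
  have h4 := hG.sum_norm_sq ξ
  simp only [one_apply_eq_self] at h4
  calc ∑ e : W × W, ‖q (G e.1 (x (G e.2 ξ)))‖ ^ 2
      = ∑ w', ∑ w, ‖q (G w (x (G w' ξ)))‖ ^ 2 := by
        rw [Fintype.sum_prod_type, Finset.sum_comm]
    _ ≤ ∑ w', κ * ‖x‖ ^ 2 * ‖G w' ξ‖ ^ 2 := Finset.sum_le_sum fun w' _ => key w'
    _ = κ * ‖x‖ ^ 2 * ‖ξ‖ ^ 2 := by rw [← Finset.mul_sum, h4]

/-- the colouring lemma for vectors of a complex space, complex scalars -/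
lemma exists_colouring_complex {W : Type} [Fintype W] [DecidableEq W] {J : Type*} [Fintype J]
    {r : ℕ} (hr : 0 < r) (t : J → W × W → H) :
    ∃ c : W → Fin r, ∑ j : J, ‖∑ e : W × W, ((cInd r e.1 e.2 c : ℝ) : ℂ) • t j e‖ ^ 2
      ≤ 2 * ∑ j : J, ∑ e : W × W, ‖t j e‖ ^ 2 := by
  let _ : InnerProductSpace ℝ H := InnerProductSpace.rclikeToReal ℂ H
  exact exists_colouring (V := H) hr t

lemma apply_sum_cInd {W : Type} [Fintype W] [DecidableEq W] (G : W → (H →L[ℂ] H))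
    (x q : H →L[ℂ] H) {r : ℕ} (c : W → Fin r) (ξ : H) :
    q ((∑ e : W × W, ((cInd r e.1 e.2 c : ℝ) : ℂ) • (G e.1 * x * G e.2)) ξ)
      = ∑ e : W × W, ((cInd r e.1 e.2 c : ℝ) : ℂ) • q (G e.1 (x (G e.2 ξ))) := by
  rw [sum_apply, map_sum]
  apply Finset.sum_congr rfl
  intro e _
  rw [smul_apply, map_smul, mul_apply', mul_apply']

theorem exists_colouring_op {W : Type} [Fintype W] [DecidableEq W] {G : W → (H →L[ℂ] H)}
    (hG : IsPart A G 1) (x q : H →L[ℂ] H) {κ : ℝ} (hκ : ∀ w, ‖q * G w‖ ^ 2 ≤ κ) {r : ℕ}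
    (hr : 0 < r) (F : Finset H) :
    ∃ c : W → Fin r, ∀ ξ ∈ F,
      ‖q ((pinching (fun j => ∑ w, if c w = j then G w else 0) x - ((1 / r : ℝ) : ℂ) • x
          - ((1 - 1 / r : ℝ) : ℂ) • ∑ w, G w * x * G w) ξ)‖ ^ 2
        ≤ 2 * κ * ‖x‖ ^ 2 * ∑ ζ ∈ F, ‖ζ‖ ^ 2 := by
  obtain ⟨c, hc⟩ := exists_colouring_complex (J := F) hr
    (fun (ξ : F) (e : W × W) => q (G e.1 (x (G e.2 (ξ : H)))))
  beta_reduce at hc
  refine ⟨c, fun ξ hξ => ?_⟩
  rw [pinching_colour_sub_eq hG, apply_sum_cInd]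
  have h1 : ‖∑ e : W × W, ((cInd r e.1 e.2 c : ℝ) : ℂ) • q (G e.1 (x (G e.2 ξ)))‖ ^ 2
      ≤ ∑ j : F, ‖∑ e : W × W, ((cInd r e.1 e.2 c : ℝ) : ℂ) • q (G e.1 (x (G e.2 (j : H))))‖ ^ 2 := by
    have h0 := Finset.single_le_sum (f := fun j : F =>
      ‖∑ e : W × W, ((cInd r e.1 e.2 c : ℝ) : ℂ) • q (G e.1 (x (G e.2 (j : H))))‖ ^ 2)
      (fun j _ => sq_nonneg _) (Finset.mem_univ (⟨ξ, hξ⟩ : F))
    exact h0
  have h2 : ∑ j : F, ∑ e : W × W, ‖q (G e.1 (x (G e.2 (j : H))))‖ ^ 2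
      ≤ ∑ j : F, κ * ‖x‖ ^ 2 * ‖(j : H)‖ ^ 2 :=
    Finset.sum_le_sum fun j _ => sum_norm_sq_q_le hG x q hκ j
  have h3 : ∑ j : F, κ * ‖x‖ ^ 2 * ‖(j : H)‖ ^ 2 = κ * ‖x‖ ^ 2 * ∑ ζ ∈ F, ‖ζ‖ ^ 2 := by
    rw [← Finset.mul_sum, Finset.sum_coe_sort F (fun ζ => ‖ζ‖ ^ 2)]
  rw [h3] at h2
  linarith

end Vale.Agent.P078
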