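import Vale.Agent.P078.VN.Threshold

/-!
# P078: cutting a self-adjoint operator at level `t` by a spectral projection
-/

namespace Vale.Agent.P078

open scoped InnerProductSpace

variable {H : Type*} [NormedAddCommGroup H] [InnerProductSpace ℂ H] [CompleteSpace H]

lemma re_inner_nonneg_of_nonneg {b : H →L[ℂ] H} (hb : 0 ≤ b) (w : H) :
    0 ≤ (⟪w, b w⟫_ℂ).re := by
  have h1 : b.IsPositive := (ContinuousLinearMap.nonneg_iff_isPositive b).mp hb
  exact h1.re_inner_nonneg_right w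

lemma norm_sq_apply_sa {z : H →L[ℂ] H} (hz : IsSelfAdjoint z) (w : H) :
    ‖z w‖ ^ 2 = (⟪w, z (z w)⟫_ℂ).re := by
  rw [← inner_sa hz, inner_self_eq_norm_sq_to_K]
  norm_cast

/-- Spectral cut: a projection `P` in the double commutant of `z` with `‖z P‖ ≤ t` and
`t ‖(1 - P) ξ‖ ≤ ‖z ξ‖`. -/
lemma spectral_cut {z : H →L[ℂ] H} (hz : IsSelfAdjoint z) {t : ℝ} (ht : 0 < t) :
    ∃ P : H →L[ℂ] H, IsStarProjection P ∧ (∀ a : H →L[ℂ] H, a * z = z * a → a * P = P * a) ∧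
      (∀ v, ‖z (P v)‖ ≤ t * ‖v‖) ∧ (∀ ξ, t * ‖(1 - P) ξ‖ ≤ ‖z ξ‖) := by
  set T : H →L[ℂ] H := ((t ^ 2 : ℝ) : ℂ) • (1 : H →L[ℂ] H) with hT
  set c : H →L[ℂ] H := z * z - T with hc
  have hcsa : IsSelfAdjoint c := by
    apply IsSelfAdjoint.sub
    · unfold IsSelfAdjoint
      rw [star_mul, hz.star_eq]
    · exact real_smul_one_sa _
  obtain ⟨e, hep, h1, h2, h3⟩ := exists_threshold_gen hcsa
  have hzz : z * z = c + T := by rw [hc]; abel
  have hze : z * e = e * z := by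
    apply h3
    rw [hc, mul_sub, sub_mul, hT, mul_smul_comm, smul_mul_assoc, mul_one, one_mul, mul_assoc]
  have hP : IsStarProjection (1 - e) := hep.one_sub
  refine ⟨1 - e, hP, ?_, ?_, ?_⟩
  · intro a ha
    have hac : a * c = c * a := by
      rw [hc, mul_sub, sub_mul, hT, mul_smul_comm, smul_mul_assoc, mul_one, one_mul,
        ← mul_assoc, ha, mul_assoc, ha, mul_assoc]
    rw [mul_sub, sub_mul, mul_one, one_mul, h3 a hac]
  · intro v
    set w := (1 - e) v with hw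
    have hww : (1 - e) w = w := proj_apply_apply hP v
    have hneg : c⁻ * (1 - e) = c⁻ := by
      have h4 : c * (1 - e) * (1 - e) = c * (1 - e) := by
        rw [mul_assoc, hP.isIdempotentElem.eq]
      rw [h2] at h4
      simpa using h4
    have h5 : z (z w) = - (c⁻ w) + ((t ^ 2 : ℝ) : ℂ) • w := by
      have h6 : z (z w) = (z * z * (1 - e)) w := by
        rw [mul_apply', hww]; rfl
      rw [h6, hzz, add_mul, h2, hT, smul_mul_assoc, one_mul]
      simp only [add_apply, neg_apply, smul_apply, hww]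
    have h7 : ‖z w‖ ^ 2 ≤ t ^ 2 * ‖w‖ ^ 2 := by
      rw [norm_sq_apply_sa hz, h5, inner_add_right, inner_neg_right, inner_smul_right,
        inner_self_eq_norm_sq_to_K]
      have h8 := re_inner_nonneg_of_nonneg (CFC.negPart_nonneg c) w
      have h9 : (((t ^ 2 : ℝ) : ℂ) * ((‖w‖ : ℂ)) ^ 2).re = t ^ 2 * ‖w‖ ^ 2 := by
        norm_cast
      simp only [Complex.add_re, Complex.neg_re]
      have h9' : (((t ^ 2 : ℝ) : ℂ) * (RCLike.ofReal ‖w‖ : ℂ) ^ 2).re = t ^ 2 * ‖w‖ ^ 2 := h9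
      rw [h9']
      linarith
    have h10 : ‖w‖ ≤ ‖v‖ := proj_norm_apply_le hP v
    have h11 : ‖z w‖ ^ 2 ≤ (t * ‖v‖) ^ 2 := by
      calc ‖z w‖ ^ 2 ≤ t ^ 2 * ‖w‖ ^ 2 := h7
        _ ≤ t ^ 2 * ‖v‖ ^ 2 := by gcongr
        _ = (t * ‖v‖) ^ 2 := by ring
    exact (pow_le_pow_iff_left₀ (norm_nonneg _) (by positivity) two_ne_zero).mp h11
  · intro ξ
    have h0 : (1 - (1 - e)) ξ = e ξ := by simp
    rw [h0]
    set u := e ξ with hu
    have huu : e u = u := proj_apply_apply hep ξ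
    have hpos : c⁺ * e = c⁺ := by
      rw [← h1, mul_assoc, hep.isIdempotentElem.eq]
    have h5 : z (z u) = c⁺ u + ((t ^ 2 : ℝ) : ℂ) • u := by
      have h6 : z (z u) = (z * z * e) u := by
        rw [mul_apply', huu]; rfl
      rw [h6, hzz, add_mul, h1, hT, smul_mul_assoc, one_mul]
      simp only [add_apply, smul_apply, huu]
    have h7 : t ^ 2 * ‖u‖ ^ 2 ≤ ‖z u‖ ^ 2 := by
      rw [norm_sq_apply_sa hz, h5, inner_add_right, inner_smul_right,
        inner_self_eq_norm_sq_to_K]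
      have h8 := re_inner_nonneg_of_nonneg (CFC.posPart_nonneg c) u
      have h9 : (((t ^ 2 : ℝ) : ℂ) * ((‖u‖ : ℂ)) ^ 2).re = t ^ 2 * ‖u‖ ^ 2 := by
        norm_cast
      simp only [Complex.add_re]
      have h9' : (((t ^ 2 : ℝ) : ℂ) * (RCLike.ofReal ‖u‖ : ℂ) ^ 2).re = t ^ 2 * ‖u‖ ^ 2 := h9
      rw [h9']
      linarith
    have h10 : z u = e (z ξ) := by
      have := congrArg (fun S : H →L[ℂ] H => S ξ) hze
      exact this
    have h11 : ‖z u‖ ≤ ‖z ξ‖ := by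
      rw [h10]; exact proj_norm_apply_le hep _
    have h12 : (t * ‖u‖) ^ 2 ≤ ‖z ξ‖ ^ 2 := by
      calc (t * ‖u‖) ^ 2 = t ^ 2 * ‖u‖ ^ 2 := by ring
        _ ≤ ‖z u‖ ^ 2 := h7
        _ ≤ ‖z ξ‖ ^ 2 := by gcongr
    exact (pow_le_pow_iff_left₀ (by positivity) (norm_nonneg _) two_ne_zero).mp h12

end Vale.Agent.P078
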