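import Vale.Agent.P078.VN.Ortho
import Vale.Agent.P078.VN.Colour
import Vale.Agent.P078.VN.Cut

/-!
# P078: the upper bound for thin MASAs of arbitrary von Neumann algebras
-/

namespace Vale.Agent.P078

open scoped InnerProductSpace

variable {H : Type*} [NormedAddCommGroup H] [InnerProductSpace ℂ H] [CompleteSpace H]
variable {M A : StarSubalgebra ℂ (H →L[ℂ] H)}

/-
PROOF SKETCH (subtask).  `0 < r` from `hε`.  If `x = 0` take `p = (1, 0, .., 0)`, `a = 0`, `q = 1`.  Otherwise let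
`t := (ε - 1/r) ‖x‖ > 0`, fix `F, δ`, put `B := ∑ xi in F, ‖xi‖^2`, `σ := (t δ / 4)^2`,
`κ := σ / (16 (‖x‖^2 B + 1))`, `τ := σ / 4`.
1. `hA.exists_cluster hM hxM hx` gives `a0`.
2. `hT F (δ/2) κ` gives `q0 ∈ M`, `f : Fin n -> _`; `‖q0 * f i‖^2 = ‖q0 * f i * q0‖ ≤ κ` (C*-identity:
   `(q0 f)(q0 f)^* = q0 f q0`).
3. `exists_refinement` with `F' := F.image q0` gives `G`; `exists_colouring_op` gives `c`; `p := colour`,
   `hG.colour c` and `IsPart.toPartitionIn`.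
4. `a := (1 - 1/r) a0`, `z := q0 * (pinching p x - a - (1/r) x) * q0` is self-adjoint, in `M`; for `xi' = q0 xi`:
   `z xi' = q0 (y_c xi') + (1 - 1/r) q0 ((S_G x - a0) xi')`, so `‖z xi'‖ < t δ / 2`.
5. `spectral_cut` at level `t` gives `P`; `P ∈ M` by `hM` (anything commuting with `M` commutes with `z`), `P` commutes with
   `q0` (as `q0 z = z = z q0`); `q := q0 * P` is a projection of `M`;
   `(1 - q) xi = (1 - q0) xi + (1 - P) (q0 xi)`, so `‖(1 - q) xi‖ < δ/2 + ‖z xi'‖ / t < δ`.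
6. `q (S_P x - a) q = P z P + (1/r) q x q`, `‖P z P‖ ≤ t` (from `‖z (P v)‖ ≤ t ‖v‖`), total `≤ t + ‖x‖/r = ε ‖x‖`.
-/
theorem IsMASA.soPavable_of_thin (hM : IsVN M) (hA : IsMASA M A) (hT : IsThin M A)
    {x : H →L[ℂ] H} (hxM : x ∈ M) (hx : IsSelfAdjoint x) {r : ℕ} {ε : ℝ} (hε : 1 < r * ε) :
    SoPavable M A x ε r := by
  classical
  have hr : 0 < r := by
    rcases Nat.eq_zero_or_pos r with h | h
    · rw [h] at hε; norm_num at hε
    · exact h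
  have hr' : (0 : ℝ) < r := by exact_mod_cast hr
  intro F δ hδ
  by_cases hx0 : x = 0
  · subst hx0
    have h1 : IsPart A (fun _ : Unit => (1 : H →L[ℂ] H)) 1 :=
      ⟨fun _ => one_mem A, fun _ => IsStarProjection.one _,
        fun i j hij => absurd (Subsingleton.elim i j) hij, by simp⟩
    refine ⟨_, 0, 1, (h1.colour (fun _ => (⟨0, hr⟩ : Fin r))).toPartitionIn,
      ⟨zero_mem A, IsSelfAdjoint.zero _, le_rfl⟩, ⟨one_mem M, IsStarProjection.one _⟩, ?_, ?_⟩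
    · intro ξ _
      simpa using hδ
    · simp [pinching]
  have hxpos : 0 < ‖x‖ := norm_pos_iff.mpr hx0
  have hθ : 0 < ε - 1 / r := by
    rw [sub_pos, div_lt_iff₀ hr']
    linarith
  set t : ℝ := (ε - 1 / r) * ‖x‖ with ht
  have htpos : 0 < t := by positivity
  set B : ℝ := ∑ ξ ∈ F, ‖ξ‖ ^ 2 with hB
  have hBnn : 0 ≤ B := Finset.sum_nonneg fun _ _ => sq_nonneg _
  set s : ℝ := t * δ / 4 with hs
  have hspos : 0 < s := by positivity
  set σ : ℝ := s ^ 2 with hσ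
  have hσpos : 0 < σ := by positivity
  set κ : ℝ := σ / (16 * (‖x‖ ^ 2 * B + 1)) with hκ
  have hκpos : 0 < κ := by positivity
  have hκB : κ * ‖x‖ ^ 2 * B ≤ σ / 16 := by
    rw [hκ, div_mul_eq_mul_div, div_mul_eq_mul_div, div_le_div_iff₀ (by positivity) (by norm_num)]
    nlinarith [mul_nonneg (sq_nonneg ‖x‖) hBnn]
  obtain ⟨a0, ha0A, ha0sa, ha0n, hcl⟩ := hA.exists_cluster hM hxM hx
  obtain ⟨q0, n, f, ⟨hq0M, hq0p⟩, hf, hq0F, hq0f⟩ := hT F (δ / 2) κ (half_pos hδ) hκpos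
  have hfP : IsPart A f 1 := ⟨hf.mem, hf.proj, hf.orth, hf.sum_eq_one⟩
  have hqq : q0 * q0 = q0 := hq0p.isIdempotentElem.eq
  have hqf : ∀ i, ‖q0 * f i‖ ^ 2 ≤ κ := by
    intro i
    have h1 : (q0 * f i) * star (q0 * f i) = q0 * f i * q0 := by
      rw [star_mul, (hf.proj i).isSelfAdjoint.star_eq, hq0p.isSelfAdjoint.star_eq, mul_assoc,
        ← mul_assoc (f i), (hf.proj i).isIdempotentElem.eq, mul_assoc]
    rw [sq, ← CStarRing.norm_self_mul_star, h1]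
    exact hq0f i
  set F' : Finset H := F.image q0 with hF'
  obtain ⟨W, _, G, hG, hGκ, hGF⟩ :=
    exists_refinement hA.comm ha0A ha0n hcl hfP q0 hqf F' (τ := σ / 4) (by positivity)
  obtain ⟨c, hc⟩ := exists_colouring_op hG x q0 hGκ hr F'
  set p : Fin r → (H →L[ℂ] H) := fun j => ∑ w, if c w = j then G w else 0 with hp
  have hpP : IsPart A p 1 := hG.colour c
  have hpinch : IsPinch A x (pinching p x) := ⟨Fin r, inferInstance, p, hpP, rfl⟩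
  set ρ : ℝ := 1 / r with hρ
  have hρ0 : 0 < ρ := by positivity
  have hρ1 : ρ ≤ 1 := by
    rw [hρ, div_le_one (by positivity)]
    exact_mod_cast hr
  set a : H →L[ℂ] H := ((1 - ρ : ℝ) : ℂ) • a0 with ha
  have haA : a ∈ A := A.smul_mem ha0A _
  have hasa : IsSelfAdjoint a := by
    unfold IsSelfAdjoint
    rw [ha, star_smul, ha0sa.star_eq]
    simp
  have hanorm : ‖a‖ ≤ ‖x‖ := by
    rw [ha, norm_smul, Complex.norm_real, Real.norm_eq_abs, abs_of_nonneg (by linarith)]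
    nlinarith [norm_nonneg a0]
  set D : H →L[ℂ] H := pinching p x - a - ((ρ : ℝ) : ℂ) • x with hD
  have hDsa : IsSelfAdjoint D := by
    apply IsSelfAdjoint.sub ((hpinch.sa hx).sub hasa)
    unfold IsSelfAdjoint
    rw [star_smul, hx.star_eq]
    simp
  have hDM : D ∈ M :=
    sub_mem (sub_mem (hpinch.mem hA.le hxM) (hA.le haA)) (M.smul_mem hxM _)
  set z : H →L[ℂ] H := q0 * D * q0 with hz
  have hzsa : IsSelfAdjoint z := by
    unfold IsSelfAdjoint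
    rw [hz, star_mul, star_mul, hq0p.isSelfAdjoint.star_eq, hDsa.star_eq, mul_assoc]
  have hzM : z ∈ M := mul_mem (mul_mem hq0M hDM) hq0M
  have hBF' : ∑ ζ ∈ F', ‖ζ‖ ^ 2 ≤ B := by
    calc ∑ ζ ∈ F', ‖ζ‖ ^ 2 ≤ ∑ ξ ∈ F, ‖q0 ξ‖ ^ 2 :=
          Finset.sum_image_le_of_nonneg (f := fun ζ : H => ‖ζ‖ ^ 2) fun _ _ => sq_nonneg _
      _ ≤ B := by
          apply Finset.sum_le_sum
          intro ξ _
          have := proj_norm_apply_le hq0p ξ
          gcongr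
  have hzξ : ∀ ξ ∈ F, ‖z (q0 ξ)‖ < t * δ / 2 := by
    intro ξ hξ
    have hξ' : q0 ξ ∈ F' := Finset.mem_image_of_mem _ hξ
    have h1 := hc _ hξ'
    have h2 := hGF _ hξ'
    set SG : H →L[ℂ] H := ∑ w, G w * x * G w with hSG
    set Y : H →L[ℂ] H := pinching p x - ((ρ : ℝ) : ℂ) • x - ((1 - ρ : ℝ) : ℂ) • SG with hY
    have hnξ : ‖q0 ξ‖ ^ 2 ≤ B :=
      (Finset.single_le_sum (f := fun ζ : H => ‖ζ‖ ^ 2) (fun _ _ => sq_nonneg _) hξ').trans hBF'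
    have h3 : ‖q0 (Y (q0 ξ))‖ ^ 2 < s ^ 2 := by
      calc ‖q0 (Y (q0 ξ))‖ ^ 2 ≤ 2 * κ * ‖x‖ ^ 2 * ∑ ζ ∈ F', ‖ζ‖ ^ 2 := h1
        _ ≤ 2 * κ * ‖x‖ ^ 2 * B := by gcongr
        _ = 2 * (κ * ‖x‖ ^ 2 * B) := by ring
        _ < σ := by linarith
    have h4 : ‖q0 ((SG - a0) (q0 ξ))‖ ^ 2 < s ^ 2 := by
      calc ‖q0 ((SG - a0) (q0 ξ))‖ ^ 2 ≤ 4 * κ * ‖x‖ ^ 2 * ‖q0 ξ‖ ^ 2 + σ / 4 := h2
        _ ≤ 4 * κ * ‖x‖ ^ 2 * B + σ / 4 := by gcongr
        _ = 4 * (κ * ‖x‖ ^ 2 * B) + σ / 4 := by ring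
        _ < σ := by linarith
    have h3' : ‖q0 (Y (q0 ξ))‖ < s := lt_of_pow_lt_pow_left₀ 2 hspos.le h3
    have h4' : ‖q0 ((SG - a0) (q0 ξ))‖ < s := lt_of_pow_lt_pow_left₀ 2 hspos.le h4
    have hdec : D = Y + ((1 - ρ : ℝ) : ℂ) • (SG - a0) := by
      rw [hD, hY, ha, smul_sub]
      abel
    have h5 : z (q0 ξ) = q0 (Y (q0 ξ)) + ((1 - ρ : ℝ) : ℂ) • q0 ((SG - a0) (q0 ξ)) := by
      rw [hz, mul_apply', mul_apply', proj_apply_apply hq0p, hdec, add_apply, map_add, smul_apply,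
        map_smul]
    rw [h5]
    calc _ ≤ ‖q0 (Y (q0 ξ))‖ + ‖((1 - ρ : ℝ) : ℂ) • q0 ((SG - a0) (q0 ξ))‖ := norm_add_le _ _
      _ = ‖q0 (Y (q0 ξ))‖ + (1 - ρ) * ‖q0 ((SG - a0) (q0 ξ))‖ := by
          rw [norm_smul, Complex.norm_real, Real.norm_eq_abs, abs_of_nonneg (by linarith)]
      _ ≤ ‖q0 (Y (q0 ξ))‖ + 1 * ‖q0 ((SG - a0) (q0 ξ))‖ := by
          gcongr
          linarith
      _ < t * δ / 2 := by rw [hs] at h3' h4'; linarith
  obtain ⟨P, hPp, hPc, hPz, hPξ⟩ := spectral_cut hzsa htpos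
  have hPM : P ∈ M := hM P fun S hS => hPc S (hS z hzM)
  have hq0z : q0 * z = z := by rw [hz, ← mul_assoc, ← mul_assoc, hqq]
  have hzq0 : z * q0 = z := by rw [hz, mul_assoc, hqq]
  have hq0P : q0 * P = P * q0 := hPc q0 (by rw [hq0z, hzq0])
  set q : H →L[ℂ] H := q0 * P with hq
  have hqp : IsStarProjection q := hq0p.mul hPp hq0P
  have hqnorm : ‖q‖ ≤ 1 := IsStarProjection.norm_le q hqp
  refine ⟨p, a, q, hpP.toPartitionIn, ⟨haA, hasa, hanorm⟩, ⟨mul_mem hq0M hPM, hqp⟩, ?_, ?_⟩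
  · intro ξ hξ
    have h1 : (1 - q) ξ = (1 - q0) ξ + (1 - P) (q0 ξ) := by
      have h0 : q = P * q0 := hq0P
      rw [h0]
      simp only [sub_apply, one_apply_eq_self, mul_apply']
      abel
    have h2 : ‖(1 - P) (q0 ξ)‖ < δ / 2 := by
      have h3 := (hPξ (q0 ξ)).trans_lt (hzξ ξ hξ)
      have h4 : t * ‖(1 - P) (q0 ξ)‖ < t * (δ / 2) := by linarith
      exact lt_of_mul_lt_mul_left h4 htpos.le
    rw [h1]
    calc _ ≤ ‖(1 - q0) ξ‖ + ‖(1 - P) (q0 ξ)‖ := norm_add_le _ _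
      _ < δ / 2 + δ / 2 := add_lt_add (hq0F ξ hξ) h2
      _ = δ := by ring
  · have hdec : q * (pinching p x - a) * q = P * z * P + ((ρ : ℝ) : ℂ) • (q * x * q) := by
      have h1 : P * z * P = q * D * q := by
        rw [hz]
        calc P * (q0 * D * q0) * P = (P * q0) * D * (q0 * P) := by simp only [mul_assoc]
          _ = q * D * q := by rw [← hq0P]
      rw [h1, hD]
      simp only [mul_sub, sub_mul, mul_smul_comm, smul_mul_assoc]
      abel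
    rw [hdec]
    have h2 : ‖q * x * q‖ ≤ ‖x‖ := by
      calc ‖q * x * q‖ ≤ ‖q * x‖ * ‖q‖ := norm_mul_le _ _
        _ ≤ (‖q‖ * ‖x‖) * ‖q‖ := by gcongr; exact norm_mul_le _ _
        _ ≤ (1 * ‖x‖) * 1 := by gcongr
        _ = ‖x‖ := by ring
    have h3 : ‖P * z * P‖ ≤ t := by
      apply ContinuousLinearMap.opNorm_le_bound _ htpos.le
      intro v
      rw [mul_apply', mul_apply']
      exact (proj_norm_apply_le hPp _).trans (hPz v)
    calc _ ≤ ‖P * z * P‖ + ‖((ρ : ℝ) : ℂ) • (q * x * q)‖ := norm_add_le _ _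
      _ ≤ t + ρ * ‖x‖ := by
          apply add_le_add h3
          rw [norm_smul, Complex.norm_real, Real.norm_eq_abs, abs_of_nonneg hρ0.le]
          gcongr
      _ = ε * ‖x‖ := by rw [ht, hρ]; ring

end Vale.Agent.P078
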