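import Vale.Agent.P078.VN.Pinch

/-!
# P078: a weak-operator cluster point of the pinchings of `x` lies in the MASA
-/

namespace Vale.Agent.P078

open scoped InnerProductSpace
open Filter Topology

variable {H : Type*} [NormedAddCommGroup H] [InnerProductSpace ℂ H] [CompleteSpace H]
variable {M A : StarSubalgebra ℂ (H →L[ℂ] H)}

/-- `a` is a weak-operator cluster point of the pinchings of `x` by finite partitions in `A`. -/
def IsPinchCluster (A : StarSubalgebra ℂ (H →L[ℂ] H)) (x a : H →L[ℂ] H) : Prop :=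
  ∀ (S : Finset (H × H)) (τ : ℝ), 0 < τ →
    ∃ T, IsPinch A x T ∧ ∀ p ∈ S, ‖⟪p.1, (T - a) p.2⟫_ℂ‖ < τ

/-- Bounded families of operators have weak-operator limits along ultrafilters. -/
lemma exists_weak_limit {ι : Type*} (𝒰 : Ultrafilter ι) (T : ι → (H →L[ℂ] H)) {R : ℝ}
    (hR : 0 ≤ R) (hT : ∀ i, ‖T i‖ ≤ R) :
    ∃ a : H →L[ℂ] H, ‖a‖ ≤ R ∧
      ∀ v w, Tendsto (fun i => ⟪v, T i w⟫_ℂ) (𝒰 : Filter ι) (𝓝 ⟪v, a w⟫_ℂ) := by
  have hbd : ∀ v w i, ‖⟪T i v, w⟫_ℂ‖ ≤ R * ‖v‖ * ‖w‖ := by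
    intro v w i
    calc ‖⟪T i v, w⟫_ℂ‖ ≤ ‖T i v‖ * ‖w‖ := norm_inner_le_norm _ _
      _ ≤ (‖T i‖ * ‖v‖) * ‖w‖ := by gcongr; exact (T i).le_opNorm v
      _ ≤ R * ‖v‖ * ‖w‖ := by gcongr; exact hT i
  have hex : ∀ v w, ∃ c : ℂ, ‖c‖ ≤ R * ‖v‖ * ‖w‖ ∧
      Tendsto (fun i => ⟪T i v, w⟫_ℂ) (𝒰 : Filter ι) (𝓝 c) := by
    intro v w
    have hc : IsCompact (Metric.closedBall (0 : ℂ) (R * ‖v‖ * ‖w‖)) := isCompact_closedBall _ _
    have hle : ((𝒰.map fun i => ⟪T i v, w⟫_ℂ : Ultrafilter ℂ) : Filter ℂ)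
        ≤ 𝓟 (Metric.closedBall (0 : ℂ) (R * ‖v‖ * ‖w‖)) := by
      rw [le_principal_iff, Ultrafilter.mem_coe, Ultrafilter.mem_map]
      apply Filter.univ_mem'
      intro i
      simpa using hbd v w i
    obtain ⟨c, hc1, hc2⟩ := hc.ultrafilter_le_nhds _ hle
    exact ⟨c, by simpa using hc1, hc2⟩
  choose C hC1 hC2 using hex
  let B0 : H →ₗ⋆[ℂ] H →ₗ[ℂ] ℂ := LinearMap.mk₂'ₛₗ (starRingEnd ℂ) (RingHom.id ℂ) C
    (by
      intro m₁ m₂ n
      apply tendsto_nhds_unique (hC2 (m₁ + m₂) n)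
      have := (hC2 m₁ n).add (hC2 m₂ n)
      simpa [inner_add_left] using this)
    (by
      intro c m n
      apply tendsto_nhds_unique (hC2 (c • m) n)
      have := (hC2 m n).const_mul ((starRingEnd ℂ) c)
      simpa [inner_smul_left, mul_comm] using this)
    (by
      intro m n₁ n₂
      apply tendsto_nhds_unique (hC2 m (n₁ + n₂))
      have := (hC2 m n₁).add (hC2 m n₂)
      simpa [inner_add_right] using this)
    (by
      intro c m n
      apply tendsto_nhds_unique (hC2 m (c • n))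
      have := (hC2 m n).const_mul c
      simpa [inner_smul_right] using this)
  let B : H →L⋆[ℂ] H →L[ℂ] ℂ := B0.mkContinuous₂ R (fun v w => hC1 v w)
  set a := InnerProductSpace.continuousLinearMapOfBilin B with ha
  have hav : ∀ v w, ⟪a v, w⟫_ℂ = C v w := by
    intro v w
    rw [ha, InnerProductSpace.continuousLinearMapOfBilin_apply]
    rfl
  refine ⟨a, ?_, ?_⟩
  · apply ContinuousLinearMap.opNorm_le_bound _ hR
    intro v
    by_cases h0 : a v = 0
    · rw [h0, norm_zero]; positivity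
    · have h1 : ‖a v‖ * ‖a v‖ ≤ R * ‖v‖ * ‖a v‖ := by
        have h2 := hC1 v (a v)
        rw [← hav, inner_self_eq_norm_sq_to_K] at h2
        have h3 : ‖((‖a v‖ : ℂ)) ^ 2‖ = ‖a v‖ * ‖a v‖ := by
          rw [norm_pow, Complex.norm_real, norm_norm, sq]
        have h4 : ‖((RCLike.ofReal ‖a v‖ : ℂ)) ^ 2‖ = ‖a v‖ * ‖a v‖ := h3
        rw [h4] at h2
        exact h2
      exact le_of_mul_le_mul_right h1 (norm_pos_iff.mpr h0)
  · intro v w
    have h1 := (hC2 w v).star
    have h2 : star (C w v) = ⟪v, a w⟫_ℂ := by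
      rw [← hav]
      exact inner_conj_symm _ _
    rw [h2] at h1
    refine h1.congr ?_
    intro i
    exact inner_conj_symm _ _


theorem IsMASA.exists_cluster (hM : IsVN M) (hA : IsMASA M A) {x : H →L[ℂ] H} (hxM : x ∈ M)
    (hx : IsSelfAdjoint x) :
    ∃ a ∈ A, IsSelfAdjoint a ∧ ‖a‖ ≤ ‖x‖ ∧ IsPinchCluster A x a := by
  classical
  let α := {e : H →L[ℂ] H // e ∈ A ∧ IsStarProjection e}
  let T : Finset α → (H →L[ℂ] H) := fun S => pinchList x (S.toList.map Subtype.val)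
  have hl : ∀ S : Finset α, ∀ e ∈ S.toList.map Subtype.val, e ∈ A ∧ IsStarProjection e := by
    intro S e he
    rw [List.mem_map] at he
    obtain ⟨e', _, rfl⟩ := he
    exact e'.2
  have hTp : ∀ S, IsPinch A x (T S) := fun S => pinchList_isPinch hA.comm x _ (hl S)
  have hTc : ∀ (S : Finset α) (e : α), e ∈ S → e.1 * T S = T S * e.1 := by
    intro S e he
    apply pinchList_commute hA.comm x _ (hl S)
    rw [List.mem_map]
    exact ⟨e, Finset.mem_toList.mpr he, rfl⟩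
  let 𝒰 : Ultrafilter (Finset α) := Ultrafilter.of atTop
  have h𝒰 : (𝒰 : Filter (Finset α)) ≤ atTop := Ultrafilter.of_le _
  obtain ⟨a, han, hlim⟩ := exists_weak_limit 𝒰 T (norm_nonneg x) (fun S => (hTp S).norm_le)
  have hcommlim : ∀ b : H →L[ℂ] H, (∀ᶠ S in (𝒰 : Filter (Finset α)), b * T S = T S * b) →
      b * a = a * b := by
    intro b hb
    ext w
    apply ext_inner_left ℂ
    intro v
    have h1 := hlim (star b v) w
    have h2 := hlim v (b w)
    have h3 : ⟪star b v, a w⟫_ℂ = ⟪v, a (b w)⟫_ℂ := by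
      apply tendsto_nhds_unique h1
      refine h2.congr' ?_
      filter_upwards [hb] with S hS
      rw [ContinuousLinearMap.star_eq_adjoint, ContinuousLinearMap.adjoint_inner_left,
        ← mul_apply', ← mul_apply', hS]
    rw [mul_apply', mul_apply', ← h3, ContinuousLinearMap.star_eq_adjoint,
      ContinuousLinearMap.adjoint_inner_left]
  have hasa : IsSelfAdjoint a := by
    unfold IsSelfAdjoint
    ext w
    apply ext_inner_left ℂ
    intro v
    rw [ContinuousLinearMap.star_eq_adjoint, ContinuousLinearMap.adjoint_inner_right]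
    have h1 := (hlim w v).star
    have h2 := hlim v w
    have h3 : star ⟪w, a v⟫_ℂ = ⟪a v, w⟫_ℂ := inner_conj_symm _ _
    rw [h3] at h1
    apply tendsto_nhds_unique h1
    refine h2.congr ?_
    intro S
    have h4 : star ⟪w, T S v⟫_ℂ = ⟪T S v, w⟫_ℂ := inner_conj_symm _ _
    rw [h4, inner_sa ((hTp S).sa hx)]
  have haM : a ∈ M := by
    apply hM
    intro S hS
    apply hcommlim
    exact Filter.Eventually.of_forall fun S' => hS _ ((hTp S').mem hA.le hxM)
  have haproj : ∀ e ∈ A, IsStarProjection e → e * a = a * e := by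
    intro e he hep
    apply hcommlim
    apply h𝒰
    filter_upwards [eventually_ge_atTop ({⟨e, he, hep⟩} : Finset α)] with S hS
    exact hTc S ⟨e, he, hep⟩ (hS (Finset.mem_singleton_self _))
  have hasimple : ∀ s, IsSimple A s → s * a = a * s := by
    rintro s ⟨I, _, e, c, he, rfl⟩
    rw [Finset.sum_mul, Finset.mul_sum]
    apply Finset.sum_congr rfl
    intro i _
    rw [smul_mul_assoc, mul_smul_comm, haproj _ (he.mem i) (he.proj i)]
  have hthr := hA.hasThresholds hM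
  have haA : a ∈ A := by
    apply hA.maximal a haM
    intro b hb
    rw [← sub_eq_zero, ← norm_le_zero_iff]
    apply le_of_forall_pos_le_add
    intro κ hκ
    have hκ' : 0 < κ / (2 * (‖a‖ + 1)) := by positivity
    obtain ⟨s, hs, hbs⟩ := hthr.approx_simple hb hκ'
    have h1 : b * a - a * b = (b - s) * a - a * (b - s) := by
      rw [sub_mul, mul_sub, hasimple s hs]
      abel
    rw [h1, zero_add]
    calc ‖(b - s) * a - a * (b - s)‖ ≤ ‖(b - s) * a‖ + ‖a * (b - s)‖ := norm_sub_le _ _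
      _ ≤ ‖b - s‖ * ‖a‖ + ‖a‖ * ‖b - s‖ := add_le_add (norm_mul_le _ _) (norm_mul_le _ _)
      _ = 2 * ‖a‖ * ‖b - s‖ := by ring
      _ ≤ 2 * ‖a‖ * (κ / (2 * (‖a‖ + 1))) := by gcongr
      _ ≤ κ := by
          rw [mul_div_assoc', div_le_iff₀ (by positivity)]
          nlinarith [norm_nonneg a]
  refine ⟨a, haA, hasa, han, ?_⟩
  intro S τ hτ
  have hev : ∀ p ∈ S, ∀ᶠ S' in (𝒰 : Filter (Finset α)), ‖⟪p.1, (T S' - a) p.2⟫_ℂ‖ < τ := by
    intro p _
    have h1 := hlim p.1 p.2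
    rw [Metric.tendsto_nhds] at h1
    filter_upwards [h1 τ hτ] with S' hS'
    rw [sub_apply, inner_sub_right, ← dist_eq_norm]
    exact hS'
  have hev' := (Filter.eventually_all_finset S).mpr hev
  obtain ⟨S', hS'⟩ := hev'.exists
  exact ⟨T S', hTp S', hS'⟩

end Vale.Agent.P078
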