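import Vale.Agent.P078.VN.Cluster

/-!
# P078: refining a partition so that the pinching is close to the cluster point
-/

namespace Vale.Agent.P078

open scoped InnerProductSpace

variable {H : Type*} [NormedAddCommGroup H] [InnerProductSpace ℂ H] [CompleteSpace H]
variable {A : StarSubalgebra ℂ (H →L[ℂ] H)}

/-- Sigma version of `IsPart.prod`. -/
private lemma sigma_part (hcomm : ∀ a ∈ A, ∀ b ∈ A, a * b = b * a) {I : Type} [Fintype I]
    {f : I → (H →L[ℂ] H)} (hf : IsPart A f 1) {J : I → Type} [∀ i, Fintype (J i)]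
    {g : ∀ i, J i → (H →L[ℂ] H)} (hg : ∀ i, IsPart A (g i) 1) :
    IsPart A (fun w : Σ i, J i => f w.1 * g w.1 w.2) 1 where
  mem w := mul_mem (hf.mem _) ((hg _).mem _)
  proj w := (hf.proj _).mul ((hg _).proj _) (hcomm _ (hf.mem _) _ ((hg _).mem _))
  orth := by
    rintro ⟨i, j⟩ ⟨i', j'⟩ hne
    have h1 : f i * g i j * (f i' * g i' j') = (f i * f i') * (g i j * g i' j') := by
      rw [mul_assoc, ← mul_assoc (g i j), hcomm _ ((hg i).mem j) _ (hf.mem i'), mul_assoc,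
        mul_assoc]
    show f i * g i j * (f i' * g i' j') = 0
    rw [h1]
    by_cases hi : i = i'
    · subst hi
      have hj : j ≠ j' := fun hj => hne (by rw [hj])
      rw [(hg i).orth j j' hj, mul_zero]
    · rw [hf.orth i i' hi, zero_mul]
  sum_eq := by
    rw [Fintype.sum_sigma]
    simp only [← Finset.mul_sum, (hg _).sum_eq, mul_one]
    exact hf.sum_eq

omit [CompleteSpace H] in
/-- Almost orthogonal vectors: the square of the norm of the sum. -/
private lemma norm_sq_sum_le {I : Type} [Fintype I] (u : I → H) {c τ' : ℝ}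
    (h1 : ∑ i, ‖u i‖ ^ 2 ≤ c) (h2 : ∀ i j, i ≠ j → ‖⟪u i, u j⟫_ℂ‖ ≤ τ') (hτ' : 0 ≤ τ') :
    ‖∑ i, u i‖ ^ 2 ≤ c + (Fintype.card I : ℝ) ^ 2 * τ' := by
  classical
  have h0 : ‖∑ i, u i‖ ^ 2 = ∑ i, ∑ j, RCLike.re ⟪u i, u j⟫_ℂ := by
    rw [← inner_self_eq_norm_sq (𝕜 := ℂ), sum_inner, map_sum]
    apply Finset.sum_congr rfl
    intro i _
    rw [inner_sum, map_sum]
  have h3 : ∀ i j, RCLike.re ⟪u i, u j⟫_ℂ ≤ (if i = j then ‖u i‖ ^ 2 else 0) + τ' := by
    intro i j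
    by_cases hij : i = j
    · subst hij
      rw [if_pos rfl, inner_self_eq_norm_sq (𝕜 := ℂ)]
      linarith
    · rw [if_neg hij, zero_add]
      exact (RCLike.re_le_norm _).trans (h2 i j hij)
  calc ‖∑ i, u i‖ ^ 2 = ∑ i, ∑ j, RCLike.re ⟪u i, u j⟫_ℂ := h0
    _ ≤ ∑ i, ∑ j, ((if i = j then ‖u i‖ ^ 2 else 0) + τ') :=
        Finset.sum_le_sum fun i _ => Finset.sum_le_sum fun j _ => h3 i j
    _ = ∑ i, ‖u i‖ ^ 2 + (Fintype.card I : ℝ) ^ 2 * τ' := by
        simp only [Finset.sum_add_distrib, Finset.sum_ite_eq, Finset.mem_univ, if_true,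
          Finset.sum_const, Finset.card_univ, nsmul_eq_mul]
        ring
    _ ≤ c + (Fintype.card I : ℝ) ^ 2 * τ' := by linarith

/-- Sequential choice of the pinchings. -/
private lemma exists_pinchings {x a : H →L[ℂ] H} (hcl : IsPinchCluster A x a) {I : Type}
    [Fintype I] {f : I → (H →L[ℂ] H)} (hf : IsPart A f 1) (q : H →L[ℂ] H) (F : Finset H)
    {τ' : ℝ} (hτ' : 0 < τ') (s : Finset I) :
    ∃ T : I → (H →L[ℂ] H), (∀ i, IsPinch A x (T i)) ∧ ∀ ξ ∈ F, ∀ i ∈ s, ∀ j ∈ s, i ≠ j →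
      ‖⟪(q * f i * (T i - a) * f i) ξ, (q * f j * (T j - a) * f j) ξ⟫_ℂ‖ < τ' := by
  classical
  induction s using Finset.induction_on with
  | empty => exact ⟨fun _ => x, fun _ => IsPinch.refl x, by simp⟩
  | insert i0 s hi0 ih =>
    obtain ⟨T, hT, hTs⟩ := ih
    obtain ⟨T', hT', hS⟩ := hcl ((s ×ˢ F).image fun p : I × H =>
      (f i0 (star q ((q * f p.1 * (T p.1 - a) * f p.1) p.2)), f i0 p.2)) τ' hτ'
    have key : ∀ ξ ∈ F, ∀ j ∈ s,
        ‖⟪(q * f i0 * (T' - a) * f i0) ξ, (q * f j * (T j - a) * f j) ξ⟫_ℂ‖ < τ' := by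
      intro ξ hξ j hj
      have h1 := hS (f i0 (star q ((q * f j * (T j - a) * f j) ξ)), f i0 ξ)
        (Finset.mem_image.2 ⟨(j, ξ), Finset.mem_product.2 ⟨hj, hξ⟩, rfl⟩)
      simp only at h1
      set v := (q * f j * (T j - a) * f j) ξ with hv
      have h2 : ⟪(q * f i0 * (T' - a) * f i0) ξ, v⟫_ℂ
          = ⟪(T' - a) (f i0 ξ), f i0 (star q v)⟫_ℂ := by
        have e1 : (q * f i0 * (T' - a) * f i0) ξ = q (f i0 ((T' - a) (f i0 ξ))) := rfl
        rw [e1, ContinuousLinearMap.star_eq_adjoint, ← ContinuousLinearMap.adjoint_inner_right,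
          inner_sa (hf.proj i0).isSelfAdjoint]
      rw [h2, norm_inner_symm]
      exact h1
    refine ⟨Function.update T i0 T', ?_, ?_⟩
    · intro i
      by_cases hi : i = i0
      · subst hi
        rw [Function.update_self]
        exact hT'
      · rw [Function.update_of_ne hi]
        exact hT i
    · intro ξ hξ i hi j hj hij
      rw [Finset.mem_insert] at hi hj
      rcases hi with rfl | hi
      · rcases hj with rfl | hj
        · exact absurd rfl hij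
        · have hj0 : j ≠ i := fun h => hi0 (h ▸ hj)
          rw [Function.update_self, Function.update_of_ne hj0]
          exact key ξ hξ j hj
      · have hi1 : i ≠ i0 := fun h => hi0 (h ▸ hi)
        rcases hj with rfl | hj
        · rw [Function.update_self, Function.update_of_ne hi1, norm_inner_symm]
          exact key ξ hξ i hi
        · have hj1 : j ≠ i0 := fun h => hi0 (h ▸ hj)
          rw [Function.update_of_ne hi1, Function.update_of_ne hj1]
          exact hTs ξ hξ i hi j hj hij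

theorem exists_refinement (hcomm : ∀ a ∈ A, ∀ b ∈ A, a * b = b * a) {x a : H →L[ℂ] H}
    (ha : a ∈ A) (hax : ‖a‖ ≤ ‖x‖) (hcl : IsPinchCluster A x a) {I : Type} [Fintype I]
    {f : I → (H →L[ℂ] H)} (hf : IsPart A f 1) (q : H →L[ℂ] H) {κ : ℝ}
    (hκ : ∀ i, ‖q * f i‖ ^ 2 ≤ κ) (F : Finset H) {τ : ℝ} (hτ : 0 < τ) :
    ∃ (W : Type) (_ : Fintype W) (G : W → (H →L[ℂ] H)), IsPart A G 1 ∧
      (∀ w, ‖q * G w‖ ^ 2 ≤ κ) ∧
      ∀ ξ ∈ F, ‖q ((∑ w, G w * x * G w - a) ξ)‖ ^ 2 ≤ 4 * κ * ‖x‖ ^ 2 * ‖ξ‖ ^ 2 + τ := by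
  classical
  set N : ℝ := (Fintype.card I : ℝ) ^ 2 with hN
  have hN0 : 0 ≤ N := by positivity
  set τ' : ℝ := τ / (N + 1) with hτ'def
  have hτ' : 0 < τ' := by positivity
  have hNτ : N * τ' ≤ τ := by
    rw [hτ'def, mul_div_assoc']
    rw [div_le_iff₀ (by positivity)]
    nlinarith
  obtain ⟨T, hTp, hT⟩ := exists_pinchings hcl hf q F hτ' Finset.univ
  choose J instJ g hg hTg using hTp
  let _ : ∀ i, Fintype (J i) := instJ
  have hG := sigma_part (J := J) (g := g) hcomm hf hg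
  refine ⟨Σ i, J i, inferInstance, fun w => f w.1 * g w.1 w.2, hG, ?_, ?_⟩
  · rintro ⟨i, j⟩
    have h1 : ‖q * (f i * g i j)‖ ≤ ‖q * f i‖ := by
      rw [← mul_assoc]
      calc ‖q * f i * g i j‖ ≤ ‖q * f i‖ * ‖g i j‖ := norm_mul_le _ _
        _ ≤ ‖q * f i‖ * 1 := by
            have := IsStarProjection.norm_le (g i j) ((hg i).proj j)
            gcongr
        _ = ‖q * f i‖ := mul_one _
    calc ‖q * (f i * g i j)‖ ^ 2 ≤ ‖q * f i‖ ^ 2 := by gcongr
      _ ≤ κ := hκ i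
  · intro ξ hξ
    -- the algebraic identity
    have e1 : ∑ w : Σ i, J i, (f w.1 * g w.1 w.2) * x * (f w.1 * g w.1 w.2)
        = ∑ i, f i * T i * f i := by
      rw [Fintype.sum_sigma]
      apply Finset.sum_congr rfl
      intro i _
      rw [hTg i, Finset.mul_sum, Finset.sum_mul]
      apply Finset.sum_congr rfl
      intro j _
      have h1 : f i * g i j = g i j * f i := hcomm _ (hf.mem i) _ ((hg i).mem j)
      calc f i * g i j * x * (f i * g i j) = f i * g i j * x * (g i j * f i) := by rw [← h1]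
        _ = f i * (g i j * x * g i j) * f i := by simp only [mul_assoc]
    have e2 : a = ∑ i, f i * a * f i := by
      have h1 : ∀ i, f i * a * f i = a * f i := by
        intro i
        rw [hcomm _ (hf.mem i) _ ha, mul_assoc, (hf.proj i).isIdempotentElem.eq]
      simp only [h1, ← Finset.mul_sum, hf.sum_eq, mul_one]
    have e3 : q ((∑ w : Σ i, J i, (f w.1 * g w.1 w.2) * x * (f w.1 * g w.1 w.2) - a) ξ)
        = ∑ i, (q * f i * (T i - a) * f i) ξ := by
      rw [e1]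
      conv_lhs => rw [e2]
      rw [← Finset.sum_sub_distrib, _root_.sum_apply, map_sum]
      apply Finset.sum_congr rfl
      intro i _
      have : f i * T i * f i - f i * a * f i = f i * (T i - a) * f i := by
        rw [mul_sub, sub_mul]
      rw [this]
      rfl
    rw [e3]
    have hb : ∀ i, ‖(q * f i * (T i - a) * f i) ξ‖ ^ 2 ≤ 4 * κ * ‖x‖ ^ 2 * ‖f i ξ‖ ^ 2 := by
      intro i
      have hTi : IsPinch A x (T i) := ⟨J i, instJ i, g i, hg i, hTg i⟩
      have h1 : ‖T i - a‖ ≤ 2 * ‖x‖ := by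
        calc ‖T i - a‖ ≤ ‖T i‖ + ‖a‖ := norm_sub_le _ _
          _ ≤ ‖x‖ + ‖x‖ := add_le_add hTi.norm_le hax
          _ = 2 * ‖x‖ := by ring
      have h2 : ‖(q * f i * (T i - a) * f i) ξ‖ ≤ ‖q * f i‖ * ((2 * ‖x‖) * ‖f i ξ‖) := by
        have e : (q * f i * (T i - a) * f i) ξ = (q * f i) ((T i - a) (f i ξ)) := rfl
        rw [e]
        calc ‖(q * f i) ((T i - a) (f i ξ))‖ ≤ ‖q * f i‖ * ‖(T i - a) (f i ξ)‖ :=
              (q * f i).le_opNorm _
          _ ≤ ‖q * f i‖ * (‖T i - a‖ * ‖f i ξ‖) := by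
              gcongr
              exact (T i - a).le_opNorm _
          _ ≤ ‖q * f i‖ * ((2 * ‖x‖) * ‖f i ξ‖) := by gcongr
      calc ‖(q * f i * (T i - a) * f i) ξ‖ ^ 2 ≤ (‖q * f i‖ * ((2 * ‖x‖) * ‖f i ξ‖)) ^ 2 := by
            gcongr
        _ = ‖q * f i‖ ^ 2 * (4 * ‖x‖ ^ 2 * ‖f i ξ‖ ^ 2) := by ring
        _ ≤ κ * (4 * ‖x‖ ^ 2 * ‖f i ξ‖ ^ 2) := by
            have := hκ i
            gcongr
        _ = 4 * κ * ‖x‖ ^ 2 * ‖f i ξ‖ ^ 2 := by ring
    have hsum : ∑ i, ‖(q * f i * (T i - a) * f i) ξ‖ ^ 2 ≤ 4 * κ * ‖x‖ ^ 2 * ‖ξ‖ ^ 2 := by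
      have h3 := hf.sum_norm_sq ξ
      simp only [one_apply_eq_self] at h3
      calc ∑ i, ‖(q * f i * (T i - a) * f i) ξ‖ ^ 2 ≤ ∑ i, 4 * κ * ‖x‖ ^ 2 * ‖f i ξ‖ ^ 2 :=
            Finset.sum_le_sum fun i _ => hb i
        _ = 4 * κ * ‖x‖ ^ 2 * ‖ξ‖ ^ 2 := by rw [← Finset.mul_sum, h3]
    have hfin := norm_sq_sum_le (fun i => (q * f i * (T i - a) * f i) ξ) hsum
      (fun i j hij => (hT ξ hξ i (Finset.mem_univ i) j (Finset.mem_univ j) hij).le) hτ'.le
    linarith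

end Vale.Agent.P078
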